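import Mathlib

/-!
Ladders of intervals in a lattice, and the condition on the overlaps.
-/

namespace Vale.Agent.P183.R2.H332

/-- A ladder in a lattice: increasing elements `a i` and `b i` (`i = 0, ..., k`) such that
`a (i + 1) ≤ b i` and such that every element lies in one of the blocks `[a i, b i]`. -/
structure Ladder (L : Type) [Lattice L] (k : ℕ) where
  a : Fin (k + 1) → L
  b : Fin (k + 1) → L
  mono_a : Monotone a
  mono_b : Monotone b
  overlap : ∀ i : Fin k, a i.succ ≤ b i.castSucc
  cover : ∀ x, ∃ i, a i ≤ x ∧ x ≤ b i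

/-- Let `f` be an isomorphism of `[u, v]` with the lattice of subgroups of `G` above `H`, and let
`f'` be an isomorphism of `[u', v']` with the lattice of subgroups of `G'` above `H'`.
They fit if there are a group `Q`, a map `α` of `G` onto `Q` and a map `β` of a subgroup `K` of
`G'` onto `Q` such that for every `x` in both intervals there is `R ≤ Q` with `f x = α⁻¹ R` and
`f' x = β⁻¹ R`. -/
def Fit {L : Type} [Lattice L] {u v u' v' : L} {G G' : Type} [Group G] [Group G']
    {H : Subgroup G} {H' : Subgroup G'} (f : Set.Icc u v ≃o Set.Ici H)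
    (f' : Set.Icc u' v' ≃o Set.Ici H') : Prop :=
  ∃ (Q : Type) (_ : Group Q) (K : Subgroup G') (α : G →* Q) (β : K →* Q),
    Function.Surjective α ∧ Function.Surjective β ∧
    ∀ (x : L) (hx : x ∈ Set.Icc u v) (hx' : x ∈ Set.Icc u' v'), ∃ R : Subgroup Q,
      (f ⟨x, hx⟩).1 = R.comap α ∧ (f' ⟨x, hx'⟩).1 = (R.comap β).map K.subtype

end Vale.Agent.P183.R2.H332
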