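import Mathlib

/-!
Pulling a quotient of a subgroup back to a larger group.
-/

set_option linter.all false

namespace Vale.Agent.P183.R2.H332

section

variable {G W Q : Type} [Group G] [Group W] [Group Q]

open Classical in
/-- A section of the map onto the left cosets, which sends the coset of `1` to `1`. -/
noncomputable def sec (K : Subgroup G) (d : G ⧸ K) : G :=
  if d = ((1 : G) : G ⧸ K) then 1 else d.out

theorem sec_spec (K : Subgroup G) (d : G ⧸ K) : ((sec K d : G) : G ⧸ K) = d := by
  unfold sec
  split_ifs with h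
  · exact h.symm
  · exact QuotientGroup.out_eq' d

theorem sec_one (K : Subgroup G) : sec K ((1 : G) : G ⧸ K) = 1 := by
  unfold sec
  rw [if_pos rfl]

theorem sec_mem (K : Subgroup G) (g : G) (d : G ⧸ K) :
    (sec K (g • d))⁻¹ * (g * sec K d) ∈ K := by
  rw [← QuotientGroup.eq, sec_spec]
  conv_lhs => rw [← sec_spec K d]
  rfl

/-- Twisted functions on the left cosets. -/
structure Co (K : Subgroup G) (β : K →* Q) (γ : W →* Q) where
  g : G
  w : G ⧸ K → W
  h : ∀ d, γ (w d) = β ⟨(sec K (g • d))⁻¹ * (g * sec K d), sec_mem K g d⟩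

namespace Co

variable {K : Subgroup G} {β : K →* Q} {γ : W →* Q}

theorem ext' {x y : Co K β γ} (h1 : x.g = y.g) (h2 : ∀ d, x.w d = y.w d) : x = y := by
  cases x with
  | mk g w h =>
    cases y with
    | mk g' w' h' =>
      simp only at h1 h2
      subst h1
      have : w = w' := funext h2
      subst this
      rfl

instance : Mul (Co K β γ) where
  mul x y :=
    { g := x.g * y.g
      w := fun d => x.w (y.g • d) * y.w d
      h := by
        intro d
        rw [map_mul, x.h, y.h, ← map_mul]
        congr 1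
        apply Subtype.ext
        show (sec K (x.g • y.g • d))⁻¹ * (x.g * sec K (y.g • d)) *
          ((sec K (y.g • d))⁻¹ * (y.g * sec K d)) =
            (sec K ((x.g * y.g) • d))⁻¹ * (x.g * y.g * sec K d)
        rw [mul_smul]
        group }

instance : One (Co K β γ) where
  one :=
    { g := 1
      w := fun _ => 1
      h := by
        intro d
        rw [map_one, ← map_one β]
        congr 1
        apply Subtype.ext
        show 1 = (sec K ((1 : G) • d))⁻¹ * (1 * sec K d)
        rw [one_smul]
        group }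

instance : Inv (Co K β γ) where
  inv x :=
    { g := x.g⁻¹
      w := fun d => (x.w (x.g⁻¹ • d))⁻¹
      h := by
        intro d
        rw [map_inv, x.h, ← map_inv]
        congr 1
        apply Subtype.ext
        show ((sec K (x.g • x.g⁻¹ • d))⁻¹ * (x.g * sec K (x.g⁻¹ • d)))⁻¹ =
          (sec K (x.g⁻¹ • d))⁻¹ * (x.g⁻¹ * sec K d)
        rw [smul_inv_smul]
        group }

theorem mul_g (x y : Co K β γ) : (x * y).g = x.g * y.g := rfl

theorem mul_w (x y : Co K β γ) (d : G ⧸ K) : (x * y).w d = x.w (y.g • d) * y.w d := rfl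

theorem one_g : (1 : Co K β γ).g = 1 := rfl

theorem one_w (d : G ⧸ K) : (1 : Co K β γ).w d = 1 := rfl

theorem inv_g (x : Co K β γ) : (x⁻¹).g = x.g⁻¹ := rfl

theorem inv_w (x : Co K β γ) (d : G ⧸ K) : (x⁻¹).w d = (x.w (x.g⁻¹ • d))⁻¹ := rfl

instance : Group (Co K β γ) :=
  Group.ofLeftAxioms
    (by
      intro x y z
      apply ext'
      · simp only [mul_g, mul_assoc]
      · intro d
        simp only [mul_g, mul_w, mul_assoc, mul_smul])
    (by
      intro x
      apply ext'
      · simp only [mul_g, one_g, one_mul]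
      · intro d
        simp only [mul_w, one_w, one_mul])
    (by
      intro x
      apply ext'
      · simp only [mul_g, inv_g, one_g, inv_mul_cancel]
      · intro d
        simp only [mul_w, inv_w, one_w, inv_smul_smul, inv_mul_cancel])

instance [Finite G] [Finite W] : Finite (Co K β γ) := by
  refine Finite.of_injective (fun x : Co K β γ => (x.g, x.w)) ?_
  intro x y hxy
  simp only [Prod.mk.injEq] at hxy
  exact ext' hxy.1 (fun d => congrFun hxy.2 d)

end Co

end

/-- Given a subgroup `K` of a finite group `G` and maps `β : K → Q`, `γ : W → Q` onto the same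
group, there are a finite group `W'`, a map `π` of `W'` onto `G` and a map of the preimage of `K`
onto `W` which is compatible with `β` and `γ`. -/
theorem exists_co {G W Q : Type} [Group G] [Group W] [Group Q] [Finite G] [Finite W]
    (K : Subgroup G) (β : K →* Q) (γ : W →* Q) (hβ : Function.Surjective β)
    (hγ : Function.Surjective γ) :
    ∃ (W' : Type) (_ : Group W') (_ : Finite W') (π : W' →* G) (ev : K.comap π →* W),
      Function.Surjective π ∧ Function.Surjective ev ∧
        ∀ w : K.comap π, γ (ev w) = β ⟨π w, w.2⟩ := by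
  classical
  let π : Co K β γ →* G :=
    { toFun := fun x => x.g
      map_one' := rfl
      map_mul' := fun _ _ => rfl }
  have hfix : ∀ g : G, g ∈ K → g • ((1 : G) : G ⧸ K) = ((1 : G) : G ⧸ K) := by
    intro g hg
    show ((g * 1 : G) : G ⧸ K) = _
    rw [QuotientGroup.eq, mul_one, mul_one]
    exact inv_mem hg
  let ev : K.comap π →* W :=
    { toFun := fun x => x.1.w ((1 : G) : G ⧸ K)
      map_one' := rfl
      map_mul' := by
        rintro ⟨x, hx⟩ ⟨y, hy⟩
        show (x * y).w ((1 : G) : G ⧸ K) = _
        rw [Co.mul_w, hfix y.g hy] }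
  choose c hc using hγ
  refine ⟨Co K β γ, inferInstance, inferInstance, π, ev, ?_, ?_, ?_⟩
  · intro g
    exact ⟨⟨g, fun d => c (β ⟨(sec K (g • d))⁻¹ * (g * sec K d), sec_mem K g d⟩),
      fun d => hc _⟩, rfl⟩
  · intro w0
    obtain ⟨⟨g, hg⟩, hgw⟩ := hβ (γ w0)
    refine ⟨⟨⟨g, fun d => if d = ((1 : G) : G ⧸ K) then w0 else
      c (β ⟨(sec K (g • d))⁻¹ * (g * sec K d), sec_mem K g d⟩), ?_⟩, hg⟩, ?_⟩
    · intro d
      by_cases hd : d = ((1 : G) : G ⧸ K)
      · subst hd
        rw [if_pos rfl, ← hgw]
        congr 1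
        apply Subtype.ext
        show g = (sec K (g • ((1 : G) : G ⧸ K)))⁻¹ * (g * sec K ((1 : G) : G ⧸ K))
        rw [hfix g hg, sec_one]
        group
      · rw [if_neg hd]
        exact hc _
    · show (if ((1 : G) : G ⧸ K) = ((1 : G) : G ⧸ K) then w0 else _) = w0
      rw [if_pos rfl]
  · rintro ⟨x, hx⟩
    show γ (x.w ((1 : G) : G ⧸ K)) = _
    rw [x.h]
    congr 1
    apply Subtype.ext
    show (sec K (x.g • ((1 : G) : G ⧸ K)))⁻¹ * (x.g * sec K ((1 : G) : G ⧸ K)) = x.g
    rw [hfix x.g hx, sec_one]
    group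

end Vale.Agent.P183.R2.H332
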