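import Mathlib
import Vale.Agent.P183.Defs

/-!
Cutting a ladder of intervals out of the subgroup lattice of a finite group.
-/

set_option linter.all false

namespace Vale.Agent.P183.R2.H332

open Vale.Agent.P183

/-- The lattice of equivalences above `τ` preserved by a set of maps is representable. -/
theorem representable_of_adm {L B : Type} [PartialOrder L] [Finite B] [Nonempty B] (τ : Setoid B)
    (F : Set (B → B))
    (e : Nonempty (L ≃o {ρ : Setoid B // τ ≤ ρ ∧ ∀ f ∈ F, ∀ b b', ρ b b' → ρ (f b) (f b')})) :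
    Representable L := by
  obtain ⟨e⟩ := e
  let P : Setoid B → Prop := fun ρ => τ ≤ ρ ∧ ∀ f ∈ F, ∀ b b', ρ b b' → ρ (f b) (f b')
  let η : Setoid B := sInf {ρ | P ρ}
  have hη : P η := by
    constructor
    · exact le_sInf fun ρ hρ => hρ.1
    · intro f hf b b' hb ρ hρ
      exact hρ.2 f hf b b' (hb ρ hρ)
  have hmin : ∀ ρ, P ρ → η ≤ ρ := fun ρ hρ => sInf_le hρ
  let A : FiniteAlgebra :=
    { carrier := Quotient η
      index := {f : B → B // f ∈ F}
      arity := fun _ => 1
      op := fun f x => Quotient.map f.1 (fun b b' h => hη.2 f.1 f.2 b b' h) (x 0)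
      finite_carrier := inferInstance
      nonempty_carrier := (inferInstance : Nonempty B).map (Quotient.mk η)
      finite_index := inferInstance }
  have hA : ∀ r : Setoid (Quotient η), A.IsCongruence r ↔ P (Setoid.comap (Quotient.mk η) r) := by
    intro r
    constructor
    · intro h
      constructor
      · intro b b' hb
        show r (Quotient.mk η b) (Quotient.mk η b')
        rw [Quotient.sound (hη.1 hb)]
      · intro f hf b b' hb
        exact h (⟨f, hf⟩ : A.index) (fun _ => Quotient.mk η b) (fun _ => Quotient.mk η b')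
          (fun _ => hb)
    · intro h i x y hxy
      have key : ∀ (u v : Quotient η), r u v →
          r (Quotient.map i.1 (fun b b' h => hη.2 i.1 i.2 b b' h) u)
            (Quotient.map i.1 (fun b b' h => hη.2 i.1 i.2 b b' h) v) := by
        intro u v
        refine Quotient.inductionOn₂ u v ?_
        intro b b' hb
        exact h.2 i.1 i.2 b b' hb
      exact key _ _ (hxy 0)
  let g : {ρ : Setoid B // P ρ} → A.Con := fun ρ =>
    ⟨Setoid.correspondence η ⟨ρ.1, hmin _ ρ.2⟩, by
      rw [hA]
      exact ρ.2⟩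
  refine ⟨A, ⟨e.trans (RelIso.ofSurjective (OrderEmbedding.ofMapLEIff g ?_) ?_)⟩⟩
  · intro a b
    exact (Setoid.correspondence η).le_iff_le
  · rintro ⟨r, hr⟩
    refine ⟨⟨Setoid.comap (Quotient.mk η) r, (hA r).1 hr⟩, ?_⟩
    apply Subtype.ext
    apply Setoid.ext
    intro u v
    exact Quotient.inductionOn₂ u v fun _ _ => Iff.rfl

variable {W : Type} [Group W]

theorem leftRel_le_iff (H K : Subgroup W) :
    QuotientGroup.leftRel H ≤ QuotientGroup.leftRel K ↔ H ≤ K := by
  constructor
  · intro h w hw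
    have h1 : QuotientGroup.leftRel H 1 w := by
      rw [QuotientGroup.leftRel_apply]
      simpa using hw
    have h2 := h h1
    rw [QuotientGroup.leftRel_apply] at h2
    simpa using h2
  · intro h x y hxy
    rw [QuotientGroup.leftRel_apply] at hxy ⊢
    exact h hxy

/-- The subgroup belonging to a left invariant equivalence. -/
def subOf (ρ : Setoid W) (h : ∀ g x y, ρ x y → ρ (g * x) (g * y)) : Subgroup W where
  carrier := {w | ρ 1 w}
  one_mem' := Setoid.refl' ρ 1
  mul_mem' := by
    intro x y hx hy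
    have h1 := h x 1 y hy
    rw [mul_one] at h1
    exact Setoid.trans' ρ hx h1
  inv_mem' := by
    intro x hx
    have h1 := h x⁻¹ 1 x hx
    rw [mul_one, inv_mul_cancel] at h1
    exact Setoid.symm' ρ h1

theorem leftRel_subOf (ρ : Setoid W) (h : ∀ g x y, ρ x y → ρ (g * x) (g * y)) :
    QuotientGroup.leftRel (subOf ρ h) = ρ := by
  apply Setoid.ext
  intro x y
  rw [QuotientGroup.leftRel_apply]
  constructor
  · intro h1
    have h2 : ρ 1 (x⁻¹ * y) := h1
    have h3 := h x _ _ h2
    rw [mul_one, mul_inv_cancel_left] at h3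
    exact h3
  · intro h1
    have h3 := h x⁻¹ _ _ h1
    rw [inv_mul_cancel] at h3
    exact h3

/-- **Cutting.** A ladder of full intervals in the subgroup lattice of a finite group is
representable. -/
theorem representable_of_ladder {L : Type} [PartialOrder L] [Finite W] (k : ℕ) (a b : ℕ → L)
    (e : L → Subgroup W) (he : ∀ x y, e x ≤ e y ↔ x ≤ y)
    (ha : ∀ i j, i ≤ j → j ≤ k → a i ≤ a j) (hb : ∀ i j, i ≤ j → j ≤ k → b i ≤ b j)
    (hbk : e (b k) = ⊤) (cover : ∀ x, ∃ i, i ≤ k ∧ a i ≤ x ∧ x ≤ b i)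
    (full : ∀ i, i ≤ k → ∀ X : Subgroup W, e (a i) ≤ X → X ≤ e (b i) →
      ∃ x, a i ≤ x ∧ x ≤ b i ∧ e x = X) : Representable L := by
  classical
  let F : Set (W → W) := {f | (∃ g : W, f = fun w => g * w) ∨
    ∃ i, i < k ∧ ∃ u ∈ e (a (i + 1)), f = fun w => if w ∈ e (b i) then 1 else u}
  have h0 : ∀ x, a 0 ≤ x := by
    intro x
    obtain ⟨i, hi, h1, _⟩ := cover x
    exact (ha 0 i (Nat.zero_le _) hi).trans h1
  have hpres : ∀ x : L, QuotientGroup.leftRel (e (a 0)) ≤ QuotientGroup.leftRel (e x) ∧
      ∀ f ∈ F, ∀ w w', QuotientGroup.leftRel (e x) w w' →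
        QuotientGroup.leftRel (e x) (f w) (f w') := by
    intro x
    refine ⟨(leftRel_le_iff _ _).2 ((he _ _).2 (h0 x)), ?_⟩
    rintro f hf w w' hw
    rw [QuotientGroup.leftRel_apply] at hw ⊢
    rcases hf with ⟨g, rfl⟩ | ⟨i, hi, u, hu, rfl⟩
    · show (g * w)⁻¹ * (g * w') ∈ e x
      have : (g * w)⁻¹ * (g * w') = w⁻¹ * w' := by group
      rw [this]
      exact hw
    · show (if w ∈ e (b i) then (1 : W) else u)⁻¹ * (if w' ∈ e (b i) then (1 : W) else u) ∈ e x
      obtain ⟨j, hj, hj1, hj2⟩ := cover x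
      by_cases hji : j ≤ i
      · have hx : e x ≤ e (b i) := (he _ _).2 (hj2.trans (hb j i hji hi.le))
        have hw2 : w ∈ e (b i) ↔ w' ∈ e (b i) := by
          have h3 : w⁻¹ * w' ∈ e (b i) := hx hw
          constructor
          · intro h4
            have := (e (b i)).mul_mem h4 h3
            rwa [mul_inv_cancel_left] at this
          · intro h4
            have := (e (b i)).mul_mem h4 ((e (b i)).inv_mem h3)
            have h5 : w' * (w⁻¹ * w')⁻¹ = w := by group
            rwa [h5] at this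
        by_cases h4 : w ∈ e (b i)
        · rw [if_pos h4, if_pos (hw2.1 h4)]
          simp
        · rw [if_neg h4, if_neg (fun h5 => h4 (hw2.2 h5))]
          simp
      · have hx : e (a (i + 1)) ≤ e x :=
          (he _ _).2 ((ha (i + 1) j (by omega) hj).trans hj1)
        have hu' := hx hu
        split_ifs
        · simp
        · simpa using hu'
        · simpa using hu'
        · simp
  refine representable_of_adm (QuotientGroup.leftRel (e (a 0))) F ⟨RelIso.ofSurjective
    (OrderEmbedding.ofMapLEIff (fun x => ⟨QuotientGroup.leftRel (e x), hpres x⟩) ?_) ?_⟩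
  · intro x y
    show QuotientGroup.leftRel (e x) ≤ QuotientGroup.leftRel (e y) ↔ x ≤ y
    rw [leftRel_le_iff, he]
  · rintro ⟨ρ, hρ1, hρ2⟩
    have hinv : ∀ g x y, ρ x y → ρ (g * x) (g * y) := by
      intro g x y hxy
      exact hρ2 (fun w => g * w) (Or.inl ⟨g, rfl⟩) x y hxy
    have hX : QuotientGroup.leftRel (subOf ρ hinv) = ρ := leftRel_subOf ρ hinv
    have hX0 : e (a 0) ≤ subOf ρ hinv := by
      rw [← leftRel_le_iff, hX]
      exact hρ1
    have hcut : ∀ i, i < k → subOf ρ hinv ≤ e (b i) ∨ e (a (i + 1)) ≤ subOf ρ hinv := by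
      intro i hi
      by_contra hcon
      push Not at hcon
      obtain ⟨h1, h2⟩ := hcon
      obtain ⟨w, hw1, hw2⟩ := SetLike.not_le_iff_exists.1 h1
      obtain ⟨u, hu1, hu2⟩ := SetLike.not_le_iff_exists.1 h2
      apply hu2
      have h3 := hρ2 (fun w => if w ∈ e (b i) then 1 else u) (Or.inr ⟨i, hi, u, hu1, rfl⟩) 1 w hw1
      simp only [if_pos (one_mem (e (b i))), if_neg hw2] at h3
      exact h3
    have hex : ∃ j, j ≤ k ∧ subOf ρ hinv ≤ e (b j) := ⟨k, le_refl _, by rw [hbk]; exact le_top⟩
    let j := Nat.find hex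
    obtain ⟨hj1, hj2⟩ := Nat.find_spec hex
    have hj3 : e (a j) ≤ subOf ρ hinv := by
      rcases Nat.eq_zero_or_pos j with h | h
      · rw [h]
        exact hX0
      · obtain ⟨i, hi⟩ : ∃ i, j = i + 1 := ⟨j - 1, by omega⟩
        rcases hcut i (by have := hj1; omega) with h4 | h4
        · exact absurd ⟨by have := hj1; omega, h4⟩ (Nat.find_min hex (show i < Nat.find hex by
            have : Nat.find hex = i + 1 := hi
            omega))
        · rw [hi]
          exact h4
    obtain ⟨x, _, _, hx⟩ := full j hj1 _ hj3 hj2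
    refine ⟨x, ?_⟩
    apply Subtype.ext
    show QuotientGroup.leftRel (e x) = ρ
    rw [hx, hX]

end Vale.Agent.P183.R2.H332
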