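import Mathlib
import Vale.Agent.P183.R2.H332.Cut
import Vale.Agent.P183.R2.H332.Co

/-!
Gluing a ladder of intervals in subgroup lattices of finite groups.
-/

set_option linter.all false

namespace Vale.Agent.P183.R2.H332

open Vale.Agent.P183

theorem ladder_aux {L : Type} [Lattice L] (k : ℕ) (a b : ℕ → L)
    (ha : ∀ i j, i ≤ j → j ≤ k → a i ≤ a j) (hb : ∀ i j, i ≤ j → j ≤ k → b i ≤ b j)
    (h0 : ∀ x, a 0 ≤ x) (hab : ∀ i, i < k → a (i + 1) ≤ b i)
    (cover : ∀ x, ∃ i, i ≤ k ∧ a i ≤ x ∧ x ≤ b i)
    (G : ℕ → Type) [∀ i, Group (G i)] [∀ i, Finite (G i)]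
    (f : ∀ i, L → Subgroup (G i))
    (fle : ∀ i, i ≤ k → ∀ x y, a i ≤ x → x ≤ b i → a i ≤ y → y ≤ b i → (f i x ≤ f i y ↔ x ≤ y))
    (ftop : ∀ i, i ≤ k → f i (b i) = ⊤)
    (full : ∀ i, i ≤ k → ∀ X : Subgroup (G i), f i (a i) ≤ X →
      ∃ x, a i ≤ x ∧ x ≤ b i ∧ f i x = X)
    (glue : ∀ i, i < k → ∃ (Q : Type) (_ : Group Q) (α : G i →* Q) (β : f (i + 1) (b i) →* Q),
      Function.Surjective α ∧ Function.Surjective β ∧
      ∀ x, a (i + 1) ≤ x → x ≤ b i → ∃ R : Subgroup Q, f i x = R.comap α ∧
        f (i + 1) x = (R.comap β).map (f (i + 1) (b i)).subtype) :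
    ∀ n, n ≤ k → ∃ (W : Type) (_ : Group W) (_ : Finite W) (π : W →* G n) (e : L → Subgroup W),
      Function.Surjective π ∧ (∀ x y, x ≤ b n → y ≤ b n → (e x ≤ e y ↔ x ≤ y)) ∧
      (∀ x, a n ≤ x → x ≤ b n → e x = (f n x).comap π) ∧
      ∀ i, i ≤ n → ∀ X : Subgroup W, e (a i) ≤ X → X ≤ e (b i) →
        ∃ x, a i ≤ x ∧ x ≤ b i ∧ e x = X := by
  classical
  intro n
  induction n with
  | zero =>
    intro hn
    refine ⟨G 0, inferInstance, inferInstance, MonoidHom.id _, f 0, Function.surjective_id,
      ?_, ?_, ?_⟩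
    · intro x y hx hy
      exact fle 0 hn x y (h0 x) hx (h0 y) hy
    · intro x _ _
      rfl
    · intro i hi X hX1 hX2
      obtain rfl : i = 0 := by omega
      exact full 0 hn X hX1
  | succ n ih =>
    intro hn
    obtain ⟨W, _, _, π, e, hπ, hle, hπe, hfull⟩ := ih (by omega)
    obtain ⟨Q, _, α, β, hα, hβ, hglue⟩ := glue n (by omega)
    obtain ⟨W', _, _, π', ev, hπ', hev, hco⟩ :=
      exists_co (f (n + 1) (b n)) β (α.comp π) hβ (hα.comp hπ)
    have hn1 : n + 1 ≤ k := hn
    have hab' : a (n + 1) ≤ b n := hab n (by omega)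
    have hbb : b n ≤ b (n + 1) := hb n (n + 1) (by omega) hn
    have haa : a n ≤ a (n + 1) := ha n (n + 1) (by omega) hn
    -- the two descriptions of the new map
    let U : Subgroup W' := (f (n + 1) (b n)).comap π'
    let e1 : L → Subgroup W' := fun x => ((e x).comap ev).map U.subtype
    let e2 : L → Subgroup W' := fun x => (f (n + 1) x).comap π'
    let e' : L → Subgroup W' := fun x => if x ≤ b n then e1 x else e2 x
    have he1 : ∀ x, x ≤ b n → e' x = e1 x := fun x hx => if_pos hx
    have hov : ∀ x, a (n + 1) ≤ x → x ≤ b n → e1 x = e2 x := by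
      intro x hx1 hx2
      obtain ⟨R, hR1, hR2⟩ := hglue x hx1 hx2
      have h1 : e x = R.comap (α.comp π) := by
        rw [hπe x (haa.trans hx1) hx2, hR1, Subgroup.comap_comap]
      ext w
      constructor
      · rintro ⟨u, hu, rfl⟩
        show π' u.1 ∈ f (n + 1) x
        rw [hR2]
        refine ⟨⟨π' u.1, u.2⟩, ?_, rfl⟩
        show β ⟨π' u.1, u.2⟩ ∈ R
        rw [← hco u]
        have hu' : ev u ∈ e x := hu
        rw [h1] at hu'
        exact hu'
      · intro hw
        have hw' : π' w ∈ f (n + 1) x := hw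
        rw [hR2] at hw'
        obtain ⟨⟨g, hg⟩, hgR, hgw⟩ := hw'
        have hgw' : g = π' w := hgw
        subst hgw'
        refine ⟨⟨w, hg⟩, ?_, rfl⟩
        show ev ⟨w, hg⟩ ∈ e x
        rw [h1]
        show (α.comp π) (ev ⟨w, hg⟩) ∈ R
        rw [hco]
        exact hgR
    have he2 : ∀ x, a (n + 1) ≤ x → e' x = e2 x := by
      intro x hx
      by_cases h : x ≤ b n
      · rw [he1 x h, hov x hx h]
      · exact if_neg h
    have hcov : ∀ x, x ≤ b n ∨ a (n + 1) ≤ x := by
      intro x
      obtain ⟨i, hi, h1, h2⟩ := cover x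
      by_cases hin : i ≤ n
      · exact Or.inl (h2.trans (hb i n hin (by omega)))
      · exact Or.inr ((ha (n + 1) i (by omega) hi).trans h1)
    have hsub : Function.Injective (Subgroup.map U.subtype) :=
      Subgroup.map_injective (Subgroup.subtype_injective U)
    have hle1 : ∀ x y, x ≤ b n → y ≤ b n → (e' x ≤ e' y ↔ x ≤ y) := by
      intro x y hx hy
      rw [he1 x hx, he1 y hy]
      show ((e x).comap ev).map U.subtype ≤ ((e y).comap ev).map U.subtype ↔ _
      rw [Subgroup.map_le_map_iff_of_injective (Subgroup.subtype_injective U),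
        Subgroup.comap_le_comap_of_surjective hev, hle x y hx hy]
    have hle2 : ∀ x y, a (n + 1) ≤ x → x ≤ b (n + 1) → a (n + 1) ≤ y → y ≤ b (n + 1) →
        (e' x ≤ e' y ↔ x ≤ y) := by
      intro x y hx1 hx2 hy1 hy2
      rw [he2 x hx1, he2 y hy1]
      show (f (n + 1) x).comap π' ≤ (f (n + 1) y).comap π' ↔ _
      rw [Subgroup.comap_le_comap_of_surjective hπ', fle (n + 1) hn x y hx1 hx2 hy1 hy2]
    refine ⟨W', inferInstance, inferInstance, π', e', hπ', ?_, ?_, ?_⟩
    · intro x y hx hy
      rcases hcov x with hx1 | hx1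
      · rcases hcov y with hy1 | hy1
        · exact hle1 x y hx1 hy1
        · constructor
          · intro h
            -- the meet of `y` and `b n`
            have h2 : e' x ≤ e' (b n) := (hle1 x (b n) hx1 le_rfl).2 hx1
            have h3 : e' x ≤ e' (y ⊓ b n) := by
              have h4 : f (n + 1) (a (n + 1)) ≤ f (n + 1) y ⊓ f (n + 1) (b n) :=
                le_inf ((fle (n + 1) hn _ _ le_rfl (hab'.trans hbb) hy1 hy).2 hy1)
                  ((fle (n + 1) hn _ _ le_rfl (hab'.trans hbb) hab' hbb).2 hab')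
              obtain ⟨z, hz1, hz2, hz3⟩ := full (n + 1) hn _ h4
              have h5 : z ≤ y := (fle (n + 1) hn _ _ hz1 hz2 hy1 hy).1 (hz3.trans_le inf_le_left)
              have h6 : z ≤ b n :=
                (fle (n + 1) hn _ _ hz1 hz2 hab' hbb).1 (hz3.trans_le inf_le_right)
              have h7 : e' z ≤ e' (y ⊓ b n) :=
                (hle2 _ _ hz1 hz2 (le_inf hy1 hab') (inf_le_left.trans hy)).2 (le_inf h5 h6)
              refine le_trans ?_ h7
              rw [he2 z hz1]
              show e' x ≤ (f (n + 1) z).comap π'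
              rw [hz3, Subgroup.comap_inf]
              refine le_inf ?_ ?_
              · rw [he2 y hy1] at h
                exact h
              · rw [he2 (b n) hab'] at h2
                exact h2
            exact ((hle1 x (y ⊓ b n) hx1 inf_le_right).1 h3).trans inf_le_left
          · intro h
            have h1 : e' x ≤ e' (x ⊔ a (n + 1)) :=
              (hle1 x (x ⊔ a (n + 1)) hx1 (sup_le hx1 hab')).2 le_sup_left
            have h2 : e' (x ⊔ a (n + 1)) ≤ e' y :=
              (hle2 (x ⊔ a (n + 1)) y le_sup_right ((sup_le hx1 hab').trans hbb) hy1 hy).2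
                (sup_le h hy1)
            exact h1.trans h2
      · rcases hcov y with hy1 | hy1
        · constructor
          · intro h
            have h2 : e' y ≤ e' (b n) := (hle1 y (b n) hy1 le_rfl).2 hy1
            have h3 : x ≤ b n := (hle2 x (b n) hx1 hx hab' hbb).1 (h.trans h2)
            exact (hle1 x y h3 hy1).1 h
          · intro h
            exact (hle1 x y (h.trans hy1) hy1).2 h
        · exact hle2 x y hx1 hx hy1 hy
    · intro x hx1 hx2
      exact he2 x hx1
    · intro i hi X hX1 hX2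
      by_cases hin : i ≤ n
      · have hbi : b i ≤ b n := hb i n hin (by omega)
        have hai : a i ≤ b n := (ha i n hin (by omega)).trans (haa.trans hab')
        have hXU : X ≤ U := by
          refine hX2.trans ?_
          rw [he1 _ hbi]
          exact Subgroup.map_subtype_le _
        rw [he1 _ hai] at hX1
        rw [he1 _ hbi] at hX2
        -- pull `X` back to `W`
        have hY : ((X.subgroupOf U).map ev).comap ev = X.subgroupOf U := by
          apply Subgroup.comap_map_eq_self
          intro u hu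
          have h1 : u.1 ∈ e1 (a i) := by
            refine ⟨u, ?_, rfl⟩
            show ev u ∈ e (a i)
            rw [MonoidHom.mem_ker.1 hu]
            exact one_mem _
          exact hX1 h1
        have h1 : e (a i) ≤ (X.subgroupOf U).map ev := by
          rw [← Subgroup.comap_le_comap_of_surjective hev, hY]
          intro u hu
          exact hX1 ⟨u, hu, rfl⟩
        have h2 : (X.subgroupOf U).map ev ≤ e (b i) := by
          rw [← Subgroup.comap_le_comap_of_surjective hev, hY]
          intro u hu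
          have h3 : u.1 ∈ e1 (b i) := hX2 hu
          obtain ⟨v, hv, hvu⟩ := h3
          have : v = u := Subtype.ext hvu
          rw [← this]
          exact hv
        obtain ⟨x, hx1, hx2, hx3⟩ := hfull i hin _ h1 h2
        refine ⟨x, hx1, hx2, ?_⟩
        rw [he1 x (hx2.trans hbi)]
        show ((e x).comap ev).map U.subtype = X
        rw [hx3, hY, Subgroup.subgroupOf_map_subtype, inf_of_le_left hXU]
      · obtain rfl : i = n + 1 := by omega
        rw [he2 _ le_rfl] at hX1
        have hXX : (X.map π').comap π' = X := by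
          apply Subgroup.comap_map_eq_self
          intro u hu
          apply hX1
          show π' u ∈ f (n + 1) (a (n + 1))
          rw [MonoidHom.mem_ker.1 hu]
          exact one_mem _
        have h1 : f (n + 1) (a (n + 1)) ≤ X.map π' := by
          rw [← Subgroup.comap_le_comap_of_surjective hπ', hXX]
          exact hX1
        obtain ⟨x, hx1, hx2, hx3⟩ := full (n + 1) hn _ h1
        refine ⟨x, hx1, hx2, ?_⟩
        rw [he2 x hx1]
        show (f (n + 1) x).comap π' = X
        rw [hx3, hXX]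

/-- **The ladder theorem**, with the isomorphisms given as maps into the subgroup lattices. -/
theorem ladder {L : Type} [Lattice L] (k : ℕ) (a b : ℕ → L)
    (ha : ∀ i j, i ≤ j → j ≤ k → a i ≤ a j) (hb : ∀ i j, i ≤ j → j ≤ k → b i ≤ b j)
    (hab : ∀ i, i < k → a (i + 1) ≤ b i)
    (cover : ∀ x, ∃ i, i ≤ k ∧ a i ≤ x ∧ x ≤ b i)
    (G : ℕ → Type) [∀ i, Group (G i)] [∀ i, Finite (G i)]
    (f : ∀ i, L → Subgroup (G i))
    (fle : ∀ i, i ≤ k → ∀ x y, a i ≤ x → x ≤ b i → a i ≤ y → y ≤ b i → (f i x ≤ f i y ↔ x ≤ y))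
    (ftop : ∀ i, i ≤ k → f i (b i) = ⊤)
    (full : ∀ i, i ≤ k → ∀ X : Subgroup (G i), f i (a i) ≤ X →
      ∃ x, a i ≤ x ∧ x ≤ b i ∧ f i x = X)
    (glue : ∀ i, i < k → ∃ (Q : Type) (_ : Group Q) (α : G i →* Q) (β : f (i + 1) (b i) →* Q),
      Function.Surjective α ∧ Function.Surjective β ∧
      ∀ x, a (i + 1) ≤ x → x ≤ b i → ∃ R : Subgroup Q, f i x = R.comap α ∧
        f (i + 1) x = (R.comap β).map (f (i + 1) (b i)).subtype) :
    Representable L := by
  have h0 : ∀ x, a 0 ≤ x := by
    intro x
    obtain ⟨i, hi, h1, _⟩ := cover x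
    exact (ha 0 i (Nat.zero_le _) hi).trans h1
  have h1 : ∀ x, x ≤ b k := by
    intro x
    obtain ⟨i, hi, _, h2⟩ := cover x
    exact h2.trans (hb i k hi le_rfl)
  obtain ⟨W, _, _, π, e, hπ, hle, hπe, hfull⟩ :=
    ladder_aux k a b ha hb h0 hab cover G f fle ftop full glue k le_rfl
  refine representable_of_ladder k a b e (fun x y => hle x y (h1 x) (h1 y)) ha hb ?_ cover hfull
  rw [hπe (b k) ?_ le_rfl, ftop k le_rfl, Subgroup.comap_top]
  exact (h1 _)

end Vale.Agent.P183.R2.H332
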