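import Mathlib
import Vale.Agent.P183.R2.H332.Main

/-!
Gluing over edges.
-/

set_option linter.all false

namespace Vale.Agent.P183.R2.H332

open Vale.Agent.P183

theorem glue_edge {G G' : Type} [Group G] [Group G'] {L : Type} [PartialOrder L]
    {u v : L} (huv : u ⋖ v) (f : L → Subgroup G) (f' : L → Subgroup G') (hv : f v = ⊤)
    (q : ℕ) (hq : q.Prime) (hN : (f u).Normal) (hi : (f u).index = q) (hle : f' u ≤ f' v)
    (hN' : ((f' u).subgroupOf (f' v)).Normal) (hi' : ((f' u).subgroupOf (f' v)).index = q) :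
    ∃ (Q : Type) (_ : Group Q) (α : G →* Q) (β : f' v →* Q),
      Function.Surjective α ∧ Function.Surjective β ∧
      ∀ x, u ≤ x → x ≤ v → ∃ R : Subgroup Q, f x = R.comap α ∧
        f' x = (R.comap β).map (f' v).subtype := by
  classical
  haveI : Fact q.Prime := ⟨hq⟩
  have h1 : Nat.card (G ⧸ f u) = q := hi
  have h2 : Nat.card (f' v ⧸ (f' u).subgroupOf (f' v)) = q := hi'
  let E : (f' v ⧸ (f' u).subgroupOf (f' v)) ≃* (G ⧸ f u) := mulEquivOfPrimeCardEq h2 h1
  refine ⟨G ⧸ f u, inferInstance, QuotientGroup.mk' (f u),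
    E.toMonoidHom.comp (QuotientGroup.mk' _), QuotientGroup.mk'_surjective _,
    E.surjective.comp (QuotientGroup.mk'_surjective _), ?_⟩
  intro x hux hxv
  rcases huv.eq_or_eq hux hxv with rfl | rfl
  · refine ⟨⊥, ?_, ?_⟩
    · rw [MonoidHom.comap_bot, QuotientGroup.ker_mk']
    · have h3 : (⊥ : Subgroup (G ⧸ f x)).comap (E.toMonoidHom.comp (QuotientGroup.mk' _)) =
          (f' x).subgroupOf (f' v) := by
        rw [← Subgroup.comap_comap]
        have h4 : (⊥ : Subgroup (G ⧸ f x)).comap E.toMonoidHom = ⊥ := by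
          rw [MonoidHom.comap_bot]
          exact (MonoidHom.ker_eq_bot_iff _).2 E.injective
        rw [h4, MonoidHom.comap_bot, QuotientGroup.ker_mk']
      rw [h3, Subgroup.subgroupOf_map_subtype, inf_of_le_left hle]
  · refine ⟨⊤, ?_, ?_⟩
    · rw [hv, Subgroup.comap_top]
    · rw [Subgroup.comap_top, ← MonoidHom.range_eq_map, Subgroup.range_subtype]

/-- A maximal subgroup of a finite `p`-group is normal of index `p`. -/
theorem coatom_pgroup {G : Type} [Group G] [Finite G] {p : ℕ} (hp : p.Prime)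
    (hG : IsPGroup p G) {X : Subgroup G} (hX : IsCoatom X) : X.Normal ∧ X.index = p := by
  classical
  haveI : Fact p.Prime := ⟨hp⟩
  haveI : Group.IsNilpotent G := hG.isNilpotent
  refine ⟨Subgroup.NormalizerCondition.normal_of_coatom X Group.normalizerCondition_of_isNilpotent hX, ?_⟩
  obtain ⟨n, hn⟩ := (IsPGroup.iff_card.1 (hG.to_subgroup X))
  obtain ⟨m, hm⟩ := IsPGroup.iff_card.1 hG
  have h1 : Nat.card X * X.index = Nat.card G := X.card_mul_index
  have h2 : X.index ≠ 1 := by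
    rw [Ne, Subgroup.index_eq_one]
    exact hX.1
  have hnm : n < m := by
    rw [hn, hm] at h1
    have h3 : p ^ n ∣ p ^ m := ⟨_, h1.symm⟩
    have h4 : n ≤ m := (Nat.pow_dvd_pow_iff_le_right hp.one_lt).1 h3
    rcases h4.lt_or_eq with h5 | h5
    · exact h5
    · exfalso
      apply h2
      rw [h5] at h1
      exact Nat.eq_of_mul_eq_mul_left (pow_pos hp.pos m) (by rw [h1, mul_one])
  have hdvd : p ^ (n + 1) ∣ Nat.card G := by
    rw [hm]
    exact pow_dvd_pow p hnm
  obtain ⟨K, hK, hXK⟩ := Sylow.exists_subgroup_card_pow_succ hdvd hn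
  have hKX : X < K := by
    refine lt_of_le_of_ne hXK ?_
    intro h
    rw [← h, hn] at hK
    have := Nat.pow_right_injective hp.two_le hK
    omega
  have hKt : K = ⊤ := hX.2 K hKX
  rw [hKt, Subgroup.card_top] at hK
  rw [hn, hK, pow_succ] at h1
  exact Nat.eq_of_mul_eq_mul_left (pow_pos hp.pos n) h1

/-- **Gluing over edges of prime type.** -/
theorem edge_ladder {L : Type} [Lattice L] (k : ℕ) (a b : ℕ → L)
    (ha : ∀ i j, i ≤ j → j ≤ k → a i ≤ a j) (hb : ∀ i j, i ≤ j → j ≤ k → b i ≤ b j)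
    (hab : ∀ i, i < k → a (i + 1) ⋖ b i)
    (cover : ∀ x, ∃ i, i ≤ k ∧ a i ≤ x ∧ x ≤ b i)
    (G : ℕ → Type) [∀ i, Group (G i)] [∀ i, Finite (G i)]
    (f : ∀ i, L → Subgroup (G i))
    (fle : ∀ i, i ≤ k → ∀ x y, a i ≤ x → x ≤ b i → a i ≤ y → y ≤ b i → (f i x ≤ f i y ↔ x ≤ y))
    (ftop : ∀ i, i ≤ k → f i (b i) = ⊤)
    (full : ∀ i, i ≤ k → ∀ X : Subgroup (G i), f i (a i) ≤ X →
      ∃ x, a i ≤ x ∧ x ≤ b i ∧ f i x = X)
    (q : ℕ → ℕ) (hq : ∀ i, i < k → (q i).Prime)
    (hN : ∀ i, i < k → (f i (a (i + 1))).Normal ∧ (f i (a (i + 1))).index = q i)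
    (hN' : ∀ i, i < k → ((f (i + 1) (a (i + 1))).subgroupOf (f (i + 1) (b i))).Normal ∧
      ((f (i + 1) (a (i + 1))).subgroupOf (f (i + 1) (b i))).index = q i) :
    Representable L := by
  refine ladder k a b ha hb (fun i hi => (hab i hi).le) cover G f fle ftop full ?_
  intro i hi
  refine glue_edge (hab i hi) (f i) (f (i + 1)) (ftop i hi.le) (q i) (hq i hi) (hN i hi).1
    (hN i hi).2 ?_ (hN' i hi).1 (hN' i hi).2
  have h1 : b i ≤ b (i + 1) := hb i (i + 1) (by omega) hi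
  exact (fle (i + 1) hi _ _ le_rfl ((hab i hi).le.trans h1) (hab i hi).le h1).2 (hab i hi).le

end Vale.Agent.P183.R2.H332
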