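import Mathlib
import Vale.Agent.P183.R2.H332.Edge
import Vale.Agent.P183.R2.H332.LadderDefs

/-!
The ladder theorem with indices in `Fin`, and the corollary for `p`-groups.
-/

set_option linter.all false

namespace Vale.Agent.P183.R2.H332

open Vale.Agent.P183

/-- The index `min n k`. -/
def ix (k n : ℕ) : Fin (k + 1) := ⟨min n k, by omega⟩

theorem ix_castSucc {k i : ℕ} (hi : i < k) : ix k i = (⟨i, hi⟩ : Fin k).castSucc := by
  apply Fin.ext
  show min i k = i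
  omega

theorem ix_succ {k i : ℕ} (hi : i < k) : ix k (i + 1) = (⟨i, hi⟩ : Fin k).succ := by
  apply Fin.ext
  show min (i + 1) k = i + 1
  omega

theorem ladder_fin {L : Type} [Lattice L] {k : ℕ} (S : Ladder L k)
    (G : Fin (k + 1) → Type) [∀ i, Group (G i)] [∀ i, Finite (G i)]
    (f : ∀ i, L → Subgroup (G i))
    (fle : ∀ i x y, S.a i ≤ x → x ≤ S.b i → S.a i ≤ y → y ≤ S.b i → (f i x ≤ f i y ↔ x ≤ y))
    (ftop : ∀ i, f i (S.b i) = ⊤)
    (full : ∀ i, ∀ X : Subgroup (G i), f i (S.a i) ≤ X →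
      ∃ x, S.a i ≤ x ∧ x ≤ S.b i ∧ f i x = X)
    (glue : ∀ i : Fin k, ∃ (Q : Type) (_ : Group Q) (α : G i.castSucc →* Q)
      (β : f i.succ (S.b i.castSucc) →* Q), Function.Surjective α ∧ Function.Surjective β ∧
      ∀ x, S.a i.succ ≤ x → x ≤ S.b i.castSucc → ∃ R : Subgroup Q,
        f i.castSucc x = R.comap α ∧
          f i.succ x = (R.comap β).map (f i.succ (S.b i.castSucc)).subtype) :
    Representable L := by
  have hix : ∀ i j, i ≤ j → j ≤ k → ix k i ≤ ix k j := by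
    intro i j hij hj
    show min i k ≤ min j k
    omega
  refine ladder k (fun n => S.a (ix k n)) (fun n => S.b (ix k n))
    (fun i j hij hj => S.mono_a (hix i j hij hj)) (fun i j hij hj => S.mono_b (hix i j hij hj))
    ?_ ?_ (fun n => G (ix k n)) (fun n => f (ix k n)) (fun i _ => fle (ix k i))
    (fun i _ => ftop (ix k i)) (fun i _ => full (ix k i)) ?_
  · intro i hi
    show S.a (ix k (i + 1)) ≤ S.b (ix k i)
    rw [ix_castSucc hi, ix_succ hi]
    exact S.overlap _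
  · intro x
    obtain ⟨i, h1, h2⟩ := S.cover x
    have h3 : ix k i.1 = i := by
      apply Fin.ext
      show min i.1 k = i.1
      have := i.2
      omega
    refine ⟨i.1, by have := i.2; omega, ?_, ?_⟩
    · show S.a (ix k i.1) ≤ x
      rw [h3]
      exact h1
    · show x ≤ S.b (ix k i.1)
      rw [h3]
      exact h2
  · intro i hi
    have key : ∀ j j' : Fin (k + 1), j = (⟨i, hi⟩ : Fin k).castSucc →
        j' = (⟨i, hi⟩ : Fin k).succ →
        ∃ (Q : Type) (_ : Group Q) (α : G j →* Q)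
          (β : f j' (S.b j) →* Q), Function.Surjective α ∧ Function.Surjective β ∧
          ∀ x, S.a j' ≤ x → x ≤ S.b j → ∃ R : Subgroup Q,
            f j x = R.comap α ∧
              f j' x = (R.comap β).map (f j' (S.b j)).subtype := by
      rintro _ _ rfl rfl
      exact glue ⟨i, hi⟩
    exact key _ _ (ix_castSucc hi) (ix_succ hi)

/-- **The ladder theorem.** -/
theorem ladder_iso {L : Type} [Lattice L] {k : ℕ} (S : Ladder L k)
    (G : Fin (k + 1) → Type) [∀ i, Group (G i)] [∀ i, Finite (G i)]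
    (H : ∀ i, Subgroup (G i)) (f : ∀ i, Set.Icc (S.a i) (S.b i) ≃o Set.Ici (H i))
    (fit : ∀ i : Fin k, Fit (f i.castSucc) (f i.succ)) : Representable L := by
  classical
  let F : ∀ i, L → Subgroup (G i) := fun i x =>
    if h : x ∈ Set.Icc (S.a i) (S.b i) then (f i ⟨x, h⟩).1 else ⊥
  have hF : ∀ i x (h : x ∈ Set.Icc (S.a i) (S.b i)), F i x = (f i ⟨x, h⟩).1 := by
    intro i x h
    exact dif_pos h
  have hne : ∀ i, S.a i ≤ S.b i := by
    intro i
    have h := ((f i).symm ⟨⊤, Set.mem_Ici.2 le_top⟩).2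
    exact h.1.trans h.2
  have ftop : ∀ i, F i (S.b i) = ⊤ := by
    intro i
    rw [hF i _ ⟨hne i, le_rfl⟩]
    have h := ((f i).symm ⟨⊤, Set.mem_Ici.2 le_top⟩).2
    have h2 : (f i).symm ⟨⊤, Set.mem_Ici.2 le_top⟩ ≤ ⟨S.b i, ⟨hne i, le_rfl⟩⟩ := h.2
    have h3 := (f i).symm_apply_le.1 h2
    exact top_le_iff.1 h3
  refine ladder_fin S G F ?_ ftop ?_ ?_
  · intro i x y hx1 hx2 hy1 hy2
    rw [hF i x ⟨hx1, hx2⟩, hF i y ⟨hy1, hy2⟩]
    show f i ⟨x, ⟨hx1, hx2⟩⟩ ≤ f i ⟨y, ⟨hy1, hy2⟩⟩ ↔ x ≤ y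
    rw [(f i).le_iff_le]
    rfl
  · intro i X hX
    rw [hF i _ ⟨le_rfl, hne i⟩] at hX
    have hHX : H i ≤ X := (f i ⟨S.a i, ⟨le_rfl, hne i⟩⟩).2.trans hX
    refine ⟨((f i).symm ⟨X, hHX⟩).1, ((f i).symm ⟨X, hHX⟩).2.1, ((f i).symm ⟨X, hHX⟩).2.2, ?_⟩
    rw [hF i _ ((f i).symm ⟨X, hHX⟩).2]
    show (f i ((f i).symm ⟨X, hHX⟩)).1 = X
    rw [OrderIso.apply_symm_apply]
  · intro i
    obtain ⟨Q, _, K, α, β, hα, hβ, h⟩ := fit i
    have hov := S.overlap i
    have hb : S.b i.castSucc ≤ S.b i.succ := S.mono_b (Fin.castSucc_lt_succ).le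
    have ha : S.a i.castSucc ≤ S.a i.succ := S.mono_a (Fin.castSucc_lt_succ).le
    have hK : F i.succ (S.b i.castSucc) = K := by
      obtain ⟨R, h1, h2⟩ := h (S.b i.castSucc) ⟨hne _, le_rfl⟩ ⟨hov, hb⟩
      have h3 : R.comap α = ⊤ := by
        rw [← h1]
        exact (hF _ _ ⟨hne _, le_rfl⟩).symm.trans (ftop _)
      have h4 : R = ⊤ := by
        apply Subgroup.comap_injective hα
        rw [h3, Subgroup.comap_top]
      rw [hF _ _ ⟨hov, hb⟩, h2, h4, Subgroup.comap_top, ← MonoidHom.range_eq_map,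
        Subgroup.range_subtype]
    have key : ∀ K' : Subgroup (G i.succ), K' = K → ∃ (Q : Type) (_ : Group Q)
        (α : G i.castSucc →* Q) (β : K' →* Q), Function.Surjective α ∧ Function.Surjective β ∧
        ∀ x, S.a i.succ ≤ x → x ≤ S.b i.castSucc → ∃ R : Subgroup Q,
          F i.castSucc x = R.comap α ∧ F i.succ x = (R.comap β).map K'.subtype := by
      rintro _ rfl
      refine ⟨Q, inferInstance, α, β, hα, hβ, ?_⟩
      intro x hx1 hx2
      obtain ⟨R, h1, h2⟩ := h x ⟨ha.trans hx1, hx2⟩ ⟨hx1, hx2.trans hb⟩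
      exact ⟨R, by rw [hF _ _ ⟨ha.trans hx1, hx2⟩, h1], by rw [hF _ _ ⟨hx1, hx2.trans hb⟩, h2]⟩
    exact key _ hK

/-- **Gluing over edges of prime type**, indices in `Fin`. -/
theorem edge_fin {L : Type} [Lattice L] {k : ℕ} (S : Ladder L k)
    (hab : ∀ i : Fin k, S.a i.succ ⋖ S.b i.castSucc)
    (G : Fin (k + 1) → Type) [∀ i, Group (G i)] [∀ i, Finite (G i)]
    (f : ∀ i, L → Subgroup (G i))
    (fle : ∀ i x y, S.a i ≤ x → x ≤ S.b i → S.a i ≤ y → y ≤ S.b i → (f i x ≤ f i y ↔ x ≤ y))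
    (ftop : ∀ i, f i (S.b i) = ⊤)
    (full : ∀ i, ∀ X : Subgroup (G i), f i (S.a i) ≤ X →
      ∃ x, S.a i ≤ x ∧ x ≤ S.b i ∧ f i x = X)
    (q : Fin k → ℕ) (hq : ∀ i, (q i).Prime)
    (hN : ∀ i : Fin k, (f i.castSucc (S.a i.succ)).Normal ∧
      (f i.castSucc (S.a i.succ)).index = q i)
    (hN' : ∀ i : Fin k,
      ((f i.succ (S.a i.succ)).subgroupOf (f i.succ (S.b i.castSucc))).Normal ∧
      ((f i.succ (S.a i.succ)).subgroupOf (f i.succ (S.b i.castSucc))).index = q i) :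
    Representable L := by
  refine ladder_fin S G f fle ftop full ?_
  intro i
  refine glue_edge (hab i) (f i.castSucc) (f i.succ) (ftop _) (q i) (hq i) (hN i).1
    (hN i).2 ?_ (hN' i).1 (hN' i).2
  have h1 : S.b i.castSucc ≤ S.b i.succ := S.mono_b (Fin.castSucc_lt_succ).le
  exact (fle i.succ _ _ le_rfl ((hab i).le.trans h1) (hab i).le h1).2 (hab i).le

/-- **Blocks from `p`-groups glued over edges.** -/
theorem pgroup_ladder {L : Type} [Lattice L] {k : ℕ} (S : Ladder L k)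
    (hab : ∀ i : Fin k, S.a i.succ ⋖ S.b i.castSucc) (p : ℕ) (hp : p.Prime)
    (hG : ∀ i, ∃ (G : Type) (_ : Group G) (_ : Finite G) (H : Subgroup G), IsPGroup p G ∧
      Nonempty (Set.Icc (S.a i) (S.b i) ≃o Set.Ici H)) : Representable L := by
  classical
  choose G hG1 hG2 H hH hf using hG
  have f : ∀ i, Set.Icc (S.a i) (S.b i) ≃o Set.Ici (H i) := fun i => (hf i).some
  let F : ∀ i, L → Subgroup (G i) := fun i x =>
    if h : x ∈ Set.Icc (S.a i) (S.b i) then (f i ⟨x, h⟩).1 else ⊥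
  have hF : ∀ i x (h : x ∈ Set.Icc (S.a i) (S.b i)), F i x = (f i ⟨x, h⟩).1 := by
    intro i x h
    exact dif_pos h
  have hne : ∀ i, S.a i ≤ S.b i := by
    intro i
    have h := ((f i).symm ⟨⊤, Set.mem_Ici.2 le_top⟩).2
    exact h.1.trans h.2
  have ftop : ∀ i, F i (S.b i) = ⊤ := by
    intro i
    rw [hF i _ ⟨hne i, le_rfl⟩]
    have h := ((f i).symm ⟨⊤, Set.mem_Ici.2 le_top⟩).2
    have h2 : (f i).symm ⟨⊤, Set.mem_Ici.2 le_top⟩ ≤ ⟨S.b i, ⟨hne i, le_rfl⟩⟩ := h.2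
    have h3 := (f i).symm_apply_le.1 h2
    exact top_le_iff.1 h3
  have fle : ∀ i x y, S.a i ≤ x → x ≤ S.b i → S.a i ≤ y → y ≤ S.b i →
      (F i x ≤ F i y ↔ x ≤ y) := by
    intro i x y hx1 hx2 hy1 hy2
    rw [hF i x ⟨hx1, hx2⟩, hF i y ⟨hy1, hy2⟩]
    show f i ⟨x, ⟨hx1, hx2⟩⟩ ≤ f i ⟨y, ⟨hy1, hy2⟩⟩ ↔ x ≤ y
    rw [(f i).le_iff_le]
    rfl
  have full : ∀ i, ∀ X : Subgroup (G i), F i (S.a i) ≤ X →
      ∃ x, S.a i ≤ x ∧ x ≤ S.b i ∧ F i x = X := by
    intro i X hX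
    rw [hF i _ ⟨le_rfl, hne i⟩] at hX
    have hHX : H i ≤ X := (f i ⟨S.a i, ⟨le_rfl, hne i⟩⟩).2.trans hX
    refine ⟨((f i).symm ⟨X, hHX⟩).1, ((f i).symm ⟨X, hHX⟩).2.1, ((f i).symm ⟨X, hHX⟩).2.2, ?_⟩
    rw [hF i _ ((f i).symm ⟨X, hHX⟩).2]
    show (f i ((f i).symm ⟨X, hHX⟩)).1 = X
    rw [OrderIso.apply_symm_apply]
  -- edges of `L` give maximal subgroups
  have hco : ∀ i (u v : L), S.a i ≤ u → v ≤ S.b i → u ⋖ v →
      IsCoatom ((F i u).subgroupOf (F i v)) := by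
    intro i u v hu hv huv
    have hub : u ≤ S.b i := huv.le.trans hv
    have hav : S.a i ≤ v := hu.trans huv.le
    have huv' : F i u ≤ F i v := (fle i u v hu hub hav hv).2 huv.le
    constructor
    · intro h
      rw [Subgroup.subgroupOf_eq_top, fle i v u hav hv hu hub] at h
      exact huv.lt.not_ge h
    · intro X hX
      have h1 : F i u ≤ X.map (F i v).subtype := by
        intro g hg
        exact ⟨⟨g, huv' hg⟩, hX.le (show (⟨g, huv' hg⟩ : F i v) ∈ (F i u).subgroupOf (F i v)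
          from hg), rfl⟩
      obtain ⟨x, hx1, hx2, hx3⟩ := full i _
        (((fle i _ _ le_rfl (hne i) hu hub).2 hu).trans h1)
      have h2 : u ≤ x := (fle i u x hu hub hx1 hx2).1 (by rw [hx3]; exact h1)
      have h3 : x ≤ v := (fle i x v hx1 hx2 hav hv).1 (by
        rw [hx3]; exact Subgroup.map_subtype_le X)
      rcases huv.eq_or_eq h2 h3 with h4 | h4
      · exfalso
        apply hX.not_ge
        intro g hg
        have h5 : g.1 ∈ F i u := by
          rw [← h4, hx3]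
          exact ⟨g, hg, rfl⟩
        exact h5
      · rw [eq_top_iff]
        intro g _
        have h5 : g.1 ∈ X.map (F i v).subtype := by
          rw [← hx3, h4]
          exact g.2
        obtain ⟨g', hg', hgg⟩ := h5
        have : g' = g := Subtype.ext hgg
        rw [← this]
        exact hg'
  have hco' : ∀ i (u : L), S.a i ≤ u → u ⋖ S.b i → IsCoatom (F i u) := by
    intro i u hu huv
    constructor
    · intro h
      have h1 : F i (S.b i) ≤ F i u := by rw [h]; exact le_top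
      exact huv.lt.not_ge ((fle i _ _ (hne i) le_rfl hu huv.le).1 h1)
    · intro X hX
      obtain ⟨x, hx1, hx2, hx3⟩ := full i X
        (((fle i _ _ le_rfl (hne i) hu huv.le).2 hu).trans hX.le)
      have h2 : u ≤ x := (fle i u x hu huv.le hx1 hx2).1 (by rw [hx3]; exact hX.le)
      rcases huv.eq_or_eq h2 hx2 with h4 | h4
      · exfalso
        rw [h4] at hx3
        exact hX.ne hx3
      · rw [← hx3, h4, ftop]
  have hb : ∀ i : Fin k, S.b i.castSucc ≤ S.b i.succ := fun i =>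
    S.mono_b (Fin.castSucc_lt_succ).le
  have ha : ∀ i : Fin k, S.a i.castSucc ≤ S.a i.succ := fun i =>
    S.mono_a (Fin.castSucc_lt_succ).le
  refine edge_fin S hab G F fle ftop full (fun _ => p) (fun _ => hp) ?_ ?_
  · intro i
    exact coatom_pgroup hp (hH i.castSucc) (hco' _ _ (ha i) (hab i))
  · intro i
    exact coatom_pgroup hp ((hH i.succ).to_subgroup _) (hco _ _ _ le_rfl (hb i) (hab i))

end Vale.Agent.P183.R2.H332
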