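import Mathlib
import Vale.Agent.P183.R2.H332.Fin

/-!
Blocks of length two from dihedral groups.
-/

set_option linter.all false

namespace Vale.Agent.P183.R2.H332

open Vale.Agent.P183

open DihedralGroup

theorem three_factors {p x y z : ℕ} (hp : p.Prime) (h : x * y * z = 2 * p) (hx : 2 ≤ x)
    (hy : 2 ≤ y) (hz : 2 ≤ z) : False := by
  have key : ∀ u v w : ℕ, 2 ∣ u → u * (v * w) = 2 * p → 2 ≤ v → 2 ≤ w → False := by
    rintro u v w ⟨c, rfl⟩ h1 hv hw
    have h2 : c * (v * w) = p := by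
      have : 2 * (c * (v * w)) = 2 * p := by rw [← h1]; ring
      omega
    have h3 : (c * v) * w = p := by rw [← h2]; ring
    have hwp : w ∣ p := ⟨c * v, by rw [← h3]; ring⟩
    rcases (Nat.dvd_prime hp).1 hwp with h4 | h4
    · omega
    · have h5 : c * v = 1 := by
        rw [h4] at h3
        exact Nat.eq_of_mul_eq_mul_right hp.pos (by rw [h3, one_mul])
      have h6 : v = 1 := Nat.eq_one_of_mul_eq_one_left h5
      omega
  have h2 : 2 ∣ x * y * z := ⟨p, h⟩
  rcases (Nat.prime_two.dvd_mul).1 h2 with h3 | h3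
  · rcases (Nat.prime_two.dvd_mul).1 h3 with h4 | h4
    · exact key x y z h4 (by rw [← h]; ring) hy hz
    · exact key y x z h4 (by rw [← h]; ring) hx hz
  · exact key z x y h3 (by rw [← h]; ring) hx hy

theorem dih_chain {p : ℕ} (hp : p.Prime) {X Y : Subgroup (DihedralGroup p)} (hX : X ≠ ⊥)
    (hXY : X < Y) : Y = ⊤ := by
  haveI : NeZero p := ⟨hp.ne_zero⟩
  by_contra hY
  have h1 : Nat.card X * X.index = 2 * p := by
    rw [X.card_mul_index, DihedralGroup.nat_card]
  have h2 : X.relIndex Y * Y.index = X.index := Subgroup.relIndex_mul_index hXY.le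
  have h3 : Nat.card X * X.relIndex Y * Y.index = 2 * p := by
    rw [mul_assoc, h2, h1]
  have hpos : 0 < Nat.card X * X.relIndex Y * Y.index := by
    rw [h3]
    exact Nat.mul_pos two_pos hp.pos
  have a1 : Nat.card X ≠ 0 := by
    intro h; rw [h] at hpos; simp at hpos
  have a2 : X.relIndex Y ≠ 0 := by
    intro h; rw [h] at hpos; simp at hpos
  have a3 : Y.index ≠ 0 := by
    intro h; rw [h] at hpos; simp at hpos
  have b1 : Nat.card X ≠ 1 := by
    intro h
    exact hX (Subgroup.card_eq_one.1 h)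
  have b2 : X.relIndex Y ≠ 1 := by
    intro h
    exact hXY.not_ge (Subgroup.relIndex_eq_one.1 h)
  have b3 : Y.index ≠ 1 := by
    intro h
    exact hY (Subgroup.index_eq_one.1 h)
  exact three_factors hp h3 (by omega) (by omega) (by omega)

/-- The rotations. -/
def rot (p : ℕ) : Subgroup (DihedralGroup p) where
  carrier := {g | ∃ i, g = r i}
  one_mem' := ⟨0, rfl⟩
  mul_mem' := by
    rintro _ _ ⟨i, rfl⟩ ⟨j, rfl⟩
    exact ⟨i + j, r_mul_r i j⟩
  inv_mem' := by
    rintro _ ⟨i, rfl⟩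
    exact ⟨-i, inv_r i⟩

theorem r_mem_rot {p : ℕ} (i : ZMod p) : r i ∈ rot p := ⟨i, rfl⟩

theorem sr_not_mem_rot {p : ℕ} (i : ZMod p) : sr i ∉ rot p := by
  rintro ⟨j, hj⟩
  cases hj

theorem rot_index (p : ℕ) : (rot p).index = 2 := by
  rw [Subgroup.index_eq_two_iff]
  refine ⟨sr 0, ?_⟩
  rintro (i | i)
  · right
    refine ⟨r_mem_rot i, ?_⟩
    rw [r_mul_sr]
    exact sr_not_mem_rot _
  · left
    refine ⟨?_, sr_not_mem_rot i⟩
    rw [sr_mul_sr]
    exact r_mem_rot _

theorem rot_ne_top (p : ℕ) : rot p ≠ ⊤ := by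
  intro h
  have := rot_index p
  rw [h, Subgroup.index_top] at this
  omega

theorem rot_ne_bot {p : ℕ} (hp : p.Prime) : rot p ≠ ⊥ := by
  intro h
  have h1 : (r 1 : DihedralGroup p) ∈ rot p := r_mem_rot 1
  rw [h, Subgroup.mem_bot, one_def] at h1
  injection h1 with h2
  haveI : Fact p.Prime := ⟨hp⟩
  exact one_ne_zero h2

theorem zp_ne_bot {p : ℕ} (i : ZMod p) : Subgroup.zpowers (sr i) ≠ ⊥ := by
  intro h
  have h1 : Nat.card (Subgroup.zpowers (sr i)) = 2 := by
    rw [Nat.card_zpowers, orderOf_sr]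
  rw [h, Subgroup.card_bot] at h1
  omega

theorem zp_ne_top {p : ℕ} (hp : p.Prime) (i : ZMod p) : Subgroup.zpowers (sr i) ≠ ⊤ := by
  intro h
  have h1 : Nat.card (Subgroup.zpowers (sr i)) = 2 := by
    rw [Nat.card_zpowers, orderOf_sr]
  rw [h, Subgroup.card_top, DihedralGroup.nat_card] at h1
  have := hp.two_le
  omega

theorem mem_zp {p : ℕ} {i : ZMod p} {g : DihedralGroup p} (h : g ∈ Subgroup.zpowers (sr i)) :
    g = 1 ∨ g = sr i := by
  obtain ⟨n, rfl⟩ := Subgroup.mem_zpowers_iff.1 h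
  have h1 : (sr i : DihedralGroup p) ^ (2 : ℤ) = 1 := by
    rw [zpow_ofNat, pow_two, sr_mul_self]
  rcases Int.even_or_odd' n with ⟨m, rfl | rfl⟩
  · left
    rw [zpow_mul, h1, one_zpow]
  · right
    rw [zpow_add, zpow_mul, h1, one_zpow, one_mul, zpow_one]

/-- The proper nontrivial subgroups of the dihedral group. -/
abbrev Mid (p : ℕ) : Type := {X : Subgroup (DihedralGroup p) // X ≠ ⊥ ∧ X ≠ ⊤}

theorem mid_cases {p : ℕ} (hp : p.Prime) (X : Mid p) :
    X.1 = rot p ∨ ∃ i, X.1 = Subgroup.zpowers (sr i) := by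
  by_cases h : ∃ i, (sr i : DihedralGroup p) ∈ X.1
  · right
    obtain ⟨i, hi⟩ := h
    refine ⟨i, ?_⟩
    have h1 : Subgroup.zpowers (sr i) ≤ X.1 := (Subgroup.zpowers_le).2 hi
    rcases h1.lt_or_eq with h2 | h2
    · exact absurd (dih_chain hp (zp_ne_bot i) h2) X.2.2
    · exact h2.symm
  · left
    have h1 : X.1 ≤ rot p := by
      rintro (i | i) hg
      · exact r_mem_rot i
      · exact absurd ⟨i, hg⟩ h
    rcases h1.lt_or_eq with h2 | h2
    · exact absurd (dih_chain hp X.2.1 h2) (rot_ne_top p)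
    · exact h2

theorem card_mid {p : ℕ} (hp : p.Prime) : Nat.card (Mid p) = p + 1 := by
  haveI : NeZero p := ⟨hp.ne_zero⟩
  let F : Option (ZMod p) → Mid p := fun o => match o with
    | none => ⟨rot p, rot_ne_bot hp, rot_ne_top p⟩
    | some i => ⟨Subgroup.zpowers (sr i), zp_ne_bot i, zp_ne_top hp i⟩
  have hF : Function.Bijective F := by
    constructor
    · rintro (_ | i) (_ | j) h
      · rfl
      · exfalso
        have h1 : rot p = Subgroup.zpowers (sr j) := congrArg Subtype.val h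
        apply sr_not_mem_rot j
        rw [h1]
        exact Subgroup.mem_zpowers _
      · exfalso
        have h1 : Subgroup.zpowers (sr i) = rot p := congrArg Subtype.val h
        apply sr_not_mem_rot i
        rw [← h1]
        exact Subgroup.mem_zpowers _
      · have h1 : Subgroup.zpowers (sr i) = Subgroup.zpowers (sr j) := congrArg Subtype.val h
        have h2 : (sr i : DihedralGroup p) ∈ Subgroup.zpowers (sr j) := by
          rw [← h1]
          exact Subgroup.mem_zpowers _
        rcases mem_zp h2 with h3 | h3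
        · rw [one_def] at h3
          cases h3
        · injection h3 with h4
          rw [h4]
    · intro X
      rcases mid_cases hp X with h | ⟨i, h⟩
      · exact ⟨none, Subtype.ext h.symm⟩
      · exact ⟨some i, Subtype.ext h.symm⟩
  rw [← Nat.card_congr (Equiv.ofBijective F hF), Finite.card_option, Nat.card_zmod]

theorem card_mid_elt {p : ℕ} (hp : p.Prime) (X : Mid p) (h : p = 2 ∨ X.1 ≠ rot p) :
    Nat.card X.1 = 2 := by
  rcases mid_cases hp X with h1 | ⟨i, h1⟩
  · rcases h with h2 | h2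
    · subst h2
      have h3 := (rot 2).card_mul_index
      rw [rot_index, DihedralGroup.nat_card] at h3
      rw [h1]
      omega
    · exact absurd h1 h2
  · rw [h1, Nat.card_zpowers, orderOf_sr]

/-- A block of length two with `p + 1` atoms is the subgroup lattice of a dihedral group, and we
can prescribe the element which goes to the rotations. -/
theorem block_dih {L : Type} [Lattice L] {a b : L} {p : ℕ} (hp : p.Prime)
    (h1 : IsAntichain (· ≤ ·) (Set.Ioo a b)) (h2 : (Set.Ioo a b).ncard = p + 1) (v : L)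
    (hv : v ∈ Set.Ioo a b) :
    ∃ f : L → Subgroup (DihedralGroup p),
      (∀ x y, a ≤ x → x ≤ b → a ≤ y → y ≤ b → (f x ≤ f y ↔ x ≤ y)) ∧ f a = ⊥ ∧ f b = ⊤ ∧
      (∀ X : Subgroup (DihedralGroup p), f a ≤ X → ∃ x, a ≤ x ∧ x ≤ b ∧ f x = X) ∧
      (f v).index = 2 ∧
      ∀ u ∈ Set.Ioo a b, (p = 2 ∨ u ≠ v) → Nat.card (f u) = 2 := by
  classical
  have hab : a < b := hv.1.trans hv.2
  have hcard : Nat.card (Set.Ioo a b) = Nat.card (Mid p) := by
    rw [card_mid hp, ← h2]
    rfl
  haveI : Finite (Set.Ioo a b) := by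
    apply Nat.finite_of_card_ne_zero
    rw [hcard, card_mid hp]
    omega
  haveI : Finite (Mid p) := by
    apply Nat.finite_of_card_ne_zero
    rw [card_mid hp]
    omega
  let e0 : Set.Ioo a b ≃ Mid p := (Finite.card_eq.1 hcard).some
  let C : Mid p := ⟨rot p, rot_ne_bot hp, rot_ne_top p⟩
  let e : Set.Ioo a b ≃ Mid p := e0.trans (Equiv.swap (e0 ⟨v, hv⟩) C)
  have hev : e ⟨v, hv⟩ = C := Equiv.swap_apply_left _ _
  let f : L → Subgroup (DihedralGroup p) := fun x =>
    if h : x ∈ Set.Ioo a b then (e ⟨x, h⟩).1 else if x = b then ⊤ else ⊥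
  have fmid : ∀ x (h : x ∈ Set.Ioo a b), f x = (e ⟨x, h⟩).1 := fun x h => dif_pos h
  have fb : f b = ⊤ := by
    show (if h : b ∈ Set.Ioo a b then (e ⟨b, h⟩).1 else if b = b then ⊤ else ⊥) = ⊤
    rw [dif_neg (fun h => lt_irrefl _ h.2), if_pos rfl]
  have fa : f a = ⊥ := by
    show (if h : a ∈ Set.Ioo a b then (e ⟨a, h⟩).1 else if a = b then ⊤ else ⊥) = ⊥
    rw [dif_neg (fun h => lt_irrefl _ h.1), if_neg hab.ne]
  have hcases : ∀ x, a ≤ x → x ≤ b → x = a ∨ x = b ∨ x ∈ Set.Ioo a b := by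
    intro x hx1 hx2
    rcases hx1.lt_or_eq with h | h
    · rcases hx2.lt_or_eq with h' | h'
      · exact Or.inr (Or.inr ⟨h, h'⟩)
      · exact Or.inr (Or.inl h')
    · exact Or.inl h.symm
  refine ⟨f, ?_, fa, fb, ?_, ?_, ?_⟩
  · intro x y hx1 hx2 hy1 hy2
    rcases hcases x hx1 hx2 with rfl | rfl | hx
    · rw [fa]
      exact ⟨fun _ => hy1, fun _ => bot_le⟩
    · rw [fb, top_le_iff]
      constructor
      · intro h
        rcases hcases y hy1 hy2 with rfl | rfl | hy
        · rw [fa] at h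
          exfalso
          exact rot_ne_bot hp (le_bot_iff.1 (h ▸ le_top))
        · exact le_rfl
        · rw [fmid y hy] at h
          exact absurd h (e ⟨y, hy⟩).2.2
      · intro h
        rw [le_antisymm hy2 h, fb]
    · rcases hcases y hy1 hy2 with rfl | rfl | hy
      · rw [fa, le_bot_iff, fmid x hx]
        constructor
        · intro h
          exact absurd h (e ⟨x, hx⟩).2.1
        · intro h
          exact absurd h hx.1.not_ge
      · rw [fb]
        exact ⟨fun _ => hx2, fun _ => le_top⟩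
      · rw [fmid x hx, fmid y hy]
        constructor
        · intro h
          rcases h.lt_or_eq with h3 | h3
          · exact absurd (dih_chain hp (e ⟨x, hx⟩).2.1 h3) (e ⟨y, hy⟩).2.2
          · have h4 : (⟨x, hx⟩ : Set.Ioo a b) = ⟨y, hy⟩ := e.injective (Subtype.ext h3)
            exact (congrArg Subtype.val h4).le
        · intro h
          have h3 : x = y := h1.eq hx hy h
          subst h3
          exact le_rfl
  · intro X _
    by_cases hX1 : X = ⊥
    · exact ⟨a, le_rfl, hab.le, by rw [fa, hX1]⟩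
    by_cases hX2 : X = ⊤
    · exact ⟨b, hab.le, le_rfl, by rw [fb, hX2]⟩
    refine ⟨(e.symm ⟨X, hX1, hX2⟩).1, (e.symm ⟨X, hX1, hX2⟩).2.1.le,
      (e.symm ⟨X, hX1, hX2⟩).2.2.le, ?_⟩
    rw [fmid _ (e.symm ⟨X, hX1, hX2⟩).2]
    show (e (e.symm ⟨X, hX1, hX2⟩)).1 = X
    rw [Equiv.apply_symm_apply]
  · rw [fmid v hv, hev]
    exact rot_index p
  · intro u hu huv
    rw [fmid u hu]
    apply card_mid_elt hp
    rcases huv with h | h
    · exact Or.inl h
    · right
      intro h3
      apply h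
      have h4 : e ⟨u, hu⟩ = e ⟨v, hv⟩ := by
        rw [hev]
        exact Subtype.ext h3
      exact congrArg Subtype.val (e.injective h4)

/-- **Blocks of length two glued over edges.** -/
theorem snake {L : Type} [Lattice L] {k : ℕ} (S : Ladder L k)
    (hab : ∀ i : Fin k, S.a i.succ ⋖ S.b i.castSucc) (p : Fin (k + 1) → ℕ)
    (hp : ∀ i, (p i).Prime)
    (hM : ∀ i, IsAntichain (· ≤ ·) (Set.Ioo (S.a i) (S.b i)) ∧
      (Set.Ioo (S.a i) (S.b i)).ncard = p i + 1)
    (hmid : ∀ i j : Fin k, j.castSucc = i.succ → p i.succ = 2 ∨ S.b i.castSucc ≠ S.a j.succ) :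
    Representable L := by
  classical
  have hb : ∀ i : Fin k, S.b i.castSucc ≤ S.b i.succ := fun i =>
    S.mono_b (Fin.castSucc_lt_succ).le
  have ha : ∀ i : Fin k, S.a i.castSucc ≤ S.a i.succ := fun i =>
    S.mono_a (Fin.castSucc_lt_succ).le
  -- the inner elements of the edges
  have hIa : ∀ i : Fin k, S.a i.succ ∈ Set.Ioo (S.a i.castSucc) (S.b i.castSucc) := by
    intro i
    refine ⟨lt_of_le_of_ne (ha i) ?_, (hab i).lt⟩
    intro h
    have h1 : Set.Ioo (S.a i.castSucc) (S.b i.castSucc) = ∅ := by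
      rw [h]
      exact (hab i).Ioo_eq
    have h2 := (hM i.castSucc).2
    rw [h1, Set.ncard_empty] at h2
    omega
  have hIb : ∀ i : Fin k, S.b i.castSucc ∈ Set.Ioo (S.a i.succ) (S.b i.succ) := by
    intro i
    refine ⟨(hab i).lt, lt_of_le_of_ne (hb i) ?_⟩
    intro h
    have h1 : Set.Ioo (S.a i.succ) (S.b i.succ) = ∅ := by
      rw [← h]
      exact (hab i).Ioo_eq
    have h2 := (hM i.succ).2
    rw [h1, Set.ncard_empty] at h2
    omega
  -- choice of the element which goes to the rotations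
  have hv : ∀ i, ∃ v ∈ Set.Ioo (S.a i) (S.b i), (∀ j : Fin k, j.castSucc = i → v = S.a j.succ) ∧
      ∀ j : Fin k, j.succ = i → (p i = 2 ∨ S.b j.castSucc ≠ v) := by
    intro i
    by_cases h1 : ∃ j : Fin k, j.castSucc = i
    · obtain ⟨j, rfl⟩ := h1
      refine ⟨S.a j.succ, hIa j, ?_, ?_⟩
      · intro j' hj'
        rw [Fin.castSucc_injective k hj']
      · intro j' hj'
        rcases hmid j' j hj'.symm with h | h
        · left
          rw [← hj']
          exact h
        · exact Or.inr h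
    · by_cases h2 : ∃ j : Fin k, j.succ = i
      · obtain ⟨j, rfl⟩ := h2
        have h3 : 1 < (Set.Ioo (S.a j.succ) (S.b j.succ)).ncard := by
          rw [(hM j.succ).2]
          have := (hp j.succ).two_le
          omega
        obtain ⟨v, hv1, hv2⟩ := Set.exists_ne_of_one_lt_ncard h3 (S.b j.castSucc)
        refine ⟨v, hv1, ?_, ?_⟩
        · intro j' hj'
          exact absurd ⟨j', hj'⟩ h1
        · intro j' hj'
          right
          rw [Fin.succ_injective k hj']
          exact hv2.symm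
      · have h3 : (Set.Ioo (S.a i) (S.b i)).Nonempty := by
          apply Set.nonempty_of_ncard_ne_zero
          rw [(hM i).2]
          omega
        obtain ⟨v, hv⟩ := h3
        exact ⟨v, hv, fun j' hj' => absurd ⟨j', hj'⟩ h1, fun j' hj' => absurd ⟨j', hj'⟩ h2⟩
  choose v hv1 hv2 hv3 using hv
  have hf := fun i => block_dih (hp i) (hM i).1 (hM i).2 (v i) (hv1 i)
  choose f hf1 hf2 hf3 hf4 hf5 hf6 using hf
  haveI : ∀ i, NeZero (p i) := fun i => ⟨(hp i).ne_zero⟩
  refine edge_fin S hab (fun i => DihedralGroup (p i)) f hf1 hf3 hf4 (fun _ => 2)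
    (fun _ => Nat.prime_two) ?_ ?_
  · intro i
    have h1 : (f i.castSucc (S.a i.succ)).index = 2 := by
      rw [← hv2 i.castSucc i rfl]
      exact hf5 _
    exact ⟨Subgroup.normal_of_index_eq_two h1, h1⟩
  · intro i
    have h1 : Nat.card (f i.succ (S.b i.castSucc)) = 2 :=
      hf6 i.succ _ (hIb i) (hv3 i.succ i rfl)
    have h2 : f i.succ (S.a i.succ) = ⊥ := hf2 _
    rw [h2, Subgroup.bot_subgroupOf]
    refine ⟨inferInstance, ?_⟩
    rw [Subgroup.index_bot, h1]

end Vale.Agent.P183.R2.H332
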