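import Mathlib

/-!
Planar distributive lattices with eyes, and trees with labelled edges.
-/

namespace Vale.Agent.P183.R2.H332

/-- The points of the grid `{0, ..., m} × {0, ..., n}`, and `P i j` eyes in the unit square between
`(i, j)` and `(i + 1, j + 1)`. -/
inductive Eyed (m n : ℕ) (P : Fin m → Fin n → ℕ) : Type
  | pt (i : Fin (m + 1)) (j : Fin (n + 1)) : Eyed m n P
  | eye (i : Fin m) (j : Fin n) (t : Fin (P i j)) : Eyed m n P

namespace Eyed

variable {m n : ℕ} {P : Fin m → Fin n → ℕ}

/-- The greatest grid point below an element. -/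
def lo : Eyed m n P → Fin (m + 1) × Fin (n + 1)
  | pt i j => (i, j)
  | eye i j _ => (i.castSucc, j.castSucc)

/-- The least grid point above an element. -/
def hi : Eyed m n P → Fin (m + 1) × Fin (n + 1)
  | pt i j => (i, j)
  | eye i j _ => (i.succ, j.succ)

/-- The order: `X ≤ Y` if and only if `X = Y` or `hi X ≤ lo Y`. -/
instance : LE (Eyed m n P) := ⟨fun X Y => X = Y ∨ X.hi ≤ Y.lo⟩

/-- An element belongs to a set `D` of grid points if it is a point of `D`, or an eye of a unit
square whose four corners are in `D`. -/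
def Inside (D : Set (Fin (m + 1) × Fin (n + 1))) : Eyed m n P → Prop
  | pt i j => (i, j) ∈ D
  | eye i j _ => (i.castSucc, j.castSucc) ∈ D ∧ (i.succ, j.castSucc) ∈ D ∧
      (i.castSucc, j.succ) ∈ D ∧ (i.succ, j.succ) ∈ D

end Eyed

/-- A tree with vertex set `V` and edges `inl i` (the rows) and `inr j` (the columns): the edge `e`
joins `p e` and `q e`, and `side x e` says on which side of `e` the vertex `x` lies. -/
structure EdgeTree (m n : ℕ) (V : Type) where
  side : V → Fin m ⊕ Fin n → Bool
  p : Fin m ⊕ Fin n → V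
  q : Fin m ⊕ Fin n → V
  sep : ∀ x y, side x = side y → x = y
  ends : ∀ e, side (p e) e ≠ side (q e) e ∧ ∀ f, f ≠ e → side (p e) f = side (q e) f
  compat : ∀ e f, e ≠ f → ∀ x y, side x e ≠ side y e → side x f = side y f →
    side x f = side (p e) f

/-- The edges between the row `i` and the column `j` are smaller: no row `k > i` and no column
`l > j` separates them. -/
def EdgeTree.Link {m n : ℕ} {V : Type} (T : EdgeTree m n V) (i : Fin m) (j : Fin n) : Prop :=
  (∀ k : Fin m, i < k → T.side (T.p (Sum.inl i)) (Sum.inl k) = T.side (T.p (Sum.inr j)) (Sum.inl k)) ∧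
    ∀ l : Fin n, j < l → T.side (T.p (Sum.inl i)) (Sum.inr l) = T.side (T.p (Sum.inr j)) (Sum.inr l)

end Vale.Agent.P183.R2.H332
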