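import Mathlib

/-!
Planar distributive lattices with eyes.
-/

namespace Vale.Agent.P183.R2.H332

/-- The points of the grid `{0, ..., m} × {0, ..., n}` together with the eyes of its unit squares:
the rows carry the labels `x 0, ..., x (m - 1)` and the columns carry the labels
`y 0, ..., y (n - 1)`. The unit square between `(i, j)` and `(i + 1, j + 1)` has `N (x i)` eyes if
`x i = y j`, and no eye otherwise. -/
inductive Eyes {m n : ℕ} {ι : Type} (x : Fin m → ι) (y : Fin n → ι) (N : ι → ℕ) : Type
  | pt (i : Fin (m + 1)) (j : Fin (n + 1)) : Eyes x y N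
  | eye (i : Fin m) (j : Fin n) (h : x i = y j) (t : Fin (N (x i))) : Eyes x y N

namespace Eyes

variable {m n : ℕ} {ι : Type} {x : Fin m → ι} {y : Fin n → ι} {N : ι → ℕ}

/-- The greatest grid point below an element. -/
def lo : Eyes x y N → Fin (m + 1) × Fin (n + 1)
  | pt i j => (i, j)
  | eye i j _ _ => (i.castSucc, j.castSucc)

/-- The least grid point above an element. -/
def hi : Eyes x y N → Fin (m + 1) × Fin (n + 1)
  | pt i j => (i, j)
  | eye i j _ _ => (i.succ, j.succ)

/-- The order: grid points are ordered as pairs, and an eye lies only between the two ends of its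
square (and what is below and above them). -/
instance : LE (Eyes x y N) := ⟨fun X Y => X = Y ∨ X.hi ≤ Y.lo⟩

/-- An element belongs to a set `D` of grid points if it is a point of `D`, or an eye of a square
whose four corners are in `D`. -/
def Inside (D : Set (Fin (m + 1) × Fin (n + 1))) : Eyes x y N → Prop
  | pt i j => (i, j) ∈ D
  | eye i j _ _ => (i.castSucc, j.castSucc) ∈ D ∧ (i.succ, j.castSucc) ∈ D ∧
      (i.castSucc, j.succ) ∈ D ∧ (i.succ, j.succ) ∈ D

end Eyes

end Vale.Agent.P183.R2.H332
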