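import Mathlib
import Vale.Agent.P183.R2.H332.Cut
import Vale.Agent.P183.R2.H332.EyesDefs

/-!
Planar distributive lattices with eyes: the algebra.
-/

set_option linter.all false

namespace Vale.Agent.P183.R2.H332

open Vale.Agent.P183

namespace Eyes

section

variable {m n : ℕ} {ι : Type} {x : Fin m → ι} {y : Fin n → ι} {N : ι → ℕ}
variable {K : ι → Type} [∀ l, Field (K l)]

/-- The carrier. -/
abbrev Car (m n : ℕ) {ι : Type} (K : ι → Type) : Type :=
  (Fin m → ∀ l, K l) × (Fin n → ∀ l, K l)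

/-- Agreement of the rows from `i` on. -/
def Ag1 (x : Fin m → ι) (i : ℕ) (z z' : Car m n K) : Prop :=
  ∀ k : Fin m, i ≤ k.1 → z.1 k (x k) = z'.1 k (x k)

/-- Agreement of the columns from `j` on. -/
def Ag2 (y : Fin n → ι) (j : ℕ) (z z' : Car m n K) : Prop :=
  ∀ k : Fin n, j ≤ k.1 → z.2 k (y k) = z'.2 k (y k)

theorem Ag1.symm {i : ℕ} {z z' : Car m n K} (h : Ag1 x i z z') : Ag1 x i z' z :=
  fun k hk => (h k hk).symm

theorem Ag2.symm {i : ℕ} {z z' : Car m n K} (h : Ag2 y i z z') : Ag2 y i z' z :=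
  fun k hk => (h k hk).symm

theorem Ag1.trans {i : ℕ} {z z' z'' : Car m n K} (h : Ag1 x i z z') (h' : Ag1 x i z' z'') :
    Ag1 x i z z'' := fun k hk => (h k hk).trans (h' k hk)

theorem Ag2.trans {i : ℕ} {z z' z'' : Car m n K} (h : Ag2 y i z z') (h' : Ag2 y i z' z'') :
    Ag2 y i z z'' := fun k hk => (h k hk).trans (h' k hk)

theorem Ag1.mono {i j : ℕ} (hij : i ≤ j) {z z' : Car m n K} (h : Ag1 x i z z') :
    Ag1 x j z z' := fun k hk => h k (hij.trans hk)

theorem Ag2.mono {i j : ℕ} (hij : i ≤ j) {z z' : Car m n K} (h : Ag2 y i z z') :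
    Ag2 y j z z' := fun k hk => h k (hij.trans hk)

/-- The equivalence relation of an element. -/
def rel (κ : ∀ l, Fin (N l) ≃ (K l)ˣ) : Eyes x y N → Setoid (Car m n K)
  | pt i j =>
    { r := fun z z' => Ag1 x i.1 z z' ∧ Ag2 y j.1 z z'
      iseqv :=
        { refl := fun z => ⟨fun _ _ => rfl, fun _ _ => rfl⟩
          symm := fun h => ⟨h.1.symm, h.2.symm⟩
          trans := fun h h' => ⟨h.1.trans h'.1, h.2.trans h'.2⟩ } }
  | eye i j _ t =>
    { r := fun z z' => Ag1 x (i.1 + 1) z z' ∧ Ag2 y (j.1 + 1) z z' ∧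
        (κ (x i) t : K (x i)) * (z.1 i (x i) - z'.1 i (x i)) = z.2 j (x i) - z'.2 j (x i)
      iseqv :=
        { refl := fun z => ⟨fun _ _ => rfl, fun _ _ => rfl, by simp⟩
          symm := fun h => ⟨h.1.symm, h.2.1.symm, by
            have := h.2.2
            linear_combination -this⟩
          trans := fun h h' => ⟨h.1.trans h'.1, h.2.1.trans h'.2.1, by
            have h1 := h.2.2
            have h2 := h'.2.2
            linear_combination h1 + h2⟩ } }

variable (κ : ∀ l, Fin (N l) ≃ (K l)ˣ)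

theorem rel_pt {i : Fin (m + 1)} {j : Fin (n + 1)} {z z' : Car m n K} :
    rel κ (pt i j : Eyes x y N) z z' ↔ Ag1 x i.1 z z' ∧ Ag2 y j.1 z z' := Iff.rfl

theorem rel_eye {i : Fin m} {j : Fin n} {h : x i = y j} {t : Fin (N (x i))} {z z' : Car m n K} :
    rel κ (eye i j h t : Eyes x y N) z z' ↔ Ag1 x (i.1 + 1) z z' ∧ Ag2 y (j.1 + 1) z z' ∧
      (κ (x i) t : K (x i)) * (z.1 i (x i) - z'.1 i (x i)) = z.2 j (x i) - z'.2 j (x i) := Iff.rfl

/-- Below the square of an element everything is related. -/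
theorem rel_lo (Y : Eyes x y N) {z z' : Car m n K} (h1 : Ag1 x Y.lo.1.1 z z')
    (h2 : Ag2 y Y.lo.2.1 z z') : rel κ Y z z' := by
  cases Y with
  | pt i j => exact ⟨h1, h2⟩
  | eye i j h t =>
    have h1' : Ag1 x i.1 z z' := h1
    have h2' : Ag2 y j.1 z z' := h2
    refine ⟨h1'.mono (by omega), h2'.mono (by omega), ?_⟩
    have e1 : z.1 i (x i) = z'.1 i (x i) := h1' i le_rfl
    have e2 : z.2 j (x i) = z'.2 j (x i) := by
      rw [h]
      exact h2' j le_rfl
    rw [e1, e2, sub_self, sub_self, mul_zero]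

theorem rel_hi (Y : Eyes x y N) {z z' : Car m n K} (h : rel κ Y z z') :
    Ag1 x Y.hi.1.1 z z' ∧ Ag2 y Y.hi.2.1 z z' := by
  cases Y with
  | pt i j => exact h
  | eye i j _ t => exact ⟨h.1, h.2.1⟩

/-- The maps used in the algebra. -/
noncomputable def mp (x : Fin m → ι) (y : Fin n → ι) (c : ∀ l, K l) (b b' d d' z : Car m n K) :
    Car m n K := by
  classical
  exact
  (fun k => c * z.1 k + if ∀ r : Fin m, k < r → z.1 r (x r) = b.1 r (x r) then
      d.1 k - c * b.1 k else d'.1 k - c * b'.1 k,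
    fun k => c * z.2 k + if ∀ r : Fin n, k < r → z.2 r (y r) = b.2 r (y r) then
      d.2 k - c * b.2 k else d'.2 k - c * b'.2 k)

theorem mp1 (c : ∀ l, K l) (b b' d d' z z' : Car m n K) (k : Fin m)
    (h : Ag1 x (k.1 + 1) z z') (l : ι) :
    (mp x y c b b' d d' z).1 k l - (mp x y c b b' d d' z').1 k l =
      c l * (z.1 k l - z'.1 k l) := by
  classical
  have key : (∀ r : Fin m, k < r → z.1 r (x r) = b.1 r (x r)) ↔
      (∀ r : Fin m, k < r → z'.1 r (x r) = b.1 r (x r)) := by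
    constructor
    · intro h1 r hr
      rw [← h r hr, h1 r hr]
    · intro h1 r hr
      rw [h r hr, h1 r hr]
  unfold mp
  simp only [Pi.add_apply, Pi.mul_apply]
  simp only [key]
  ring

theorem mp2 (c : ∀ l, K l) (b b' d d' z z' : Car m n K) (k : Fin n)
    (h : Ag2 y (k.1 + 1) z z') (l : ι) :
    (mp x y c b b' d d' z).2 k l - (mp x y c b b' d d' z').2 k l =
      c l * (z.2 k l - z'.2 k l) := by
  classical
  have key : (∀ r : Fin n, k < r → z.2 r (y r) = b.2 r (y r)) ↔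
      (∀ r : Fin n, k < r → z'.2 r (y r) = b.2 r (y r)) := by
    constructor
    · intro h1 r hr
      rw [← h r hr, h1 r hr]
    · intro h1 r hr
      rw [h r hr, h1 r hr]
  unfold mp
  simp only [Pi.add_apply, Pi.mul_apply]
  simp only [key]
  ring

theorem mp_ag1 (c : ∀ l, K l) (b b' d d' z z' : Car m n K) (i : ℕ) (h : Ag1 x i z z') :
    Ag1 x i (mp x y c b b' d d' z) (mp x y c b b' d d' z') := by
  intro k hk
  have h1 := mp1 (x := x) (y := y) c b b' d d' z z' k (h.mono (by omega)) (x k)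
  rw [h k hk, sub_self, mul_zero] at h1
  exact sub_eq_zero.1 h1

theorem mp_ag2 (c : ∀ l, K l) (b b' d d' z z' : Car m n K) (i : ℕ) (h : Ag2 y i z z') :
    Ag2 y i (mp x y c b b' d d' z) (mp x y c b b' d d' z') := by
  intro k hk
  have h1 := mp2 (x := x) (y := y) c b b' d d' z z' k (h.mono (by omega)) (y k)
  rw [h k hk, sub_self, mul_zero] at h1
  exact sub_eq_zero.1 h1

theorem mp_rel (c : ∀ l, K l) (b b' d d' : Car m n K) (Y : Eyes x y N) (z z' : Car m n K)
    (h : rel κ Y z z') : rel κ Y (mp x y c b b' d d' z) (mp x y c b b' d d' z') := by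
  cases Y with
  | pt i j => exact ⟨mp_ag1 _ _ _ _ _ _ _ _ h.1, mp_ag2 _ _ _ _ _ _ _ _ h.2⟩
  | eye i j hl t =>
    obtain ⟨h1, h2, h3⟩ := h
    refine ⟨mp_ag1 _ _ _ _ _ _ _ _ h1, mp_ag2 _ _ _ _ _ _ _ _ h2, ?_⟩
    rw [mp1 _ _ _ _ _ _ _ _ h1, mp2 _ _ _ _ _ _ _ _ h2]
    linear_combination (c (x i)) * h3

theorem mp_b (c : ∀ l, K l) (b b' d d' : Car m n K) : mp x y c b b' d d' b = d := by
  classical
  unfold mp
  apply Prod.ext
  · funext k
    simp
  · funext k
    simp

theorem mp_b' (c : ∀ l, K l) (b b' d d' : Car m n K)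
    (h1 : ∀ k : Fin m, Ag1 x (k.1 + 1) b b' →
      d.1 k (x k) - d'.1 k (x k) = c (x k) * (b.1 k (x k) - b'.1 k (x k)))
    (h2 : ∀ k : Fin n, Ag2 y (k.1 + 1) b b' →
      d.2 k (y k) - d'.2 k (y k) = c (y k) * (b.2 k (y k) - b'.2 k (y k))) :
    Ag1 x 0 (mp x y c b b' d d' b') d' ∧ Ag2 y 0 (mp x y c b b' d d' b') d' := by
  classical
  constructor
  · intro k _
    unfold mp
    simp only [Pi.add_apply, Pi.mul_apply]
    split_ifs with h
    · have h3 := h1 k (fun r hr => (h r hr).symm)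
      simp only [Pi.sub_apply, Pi.mul_apply]
      linear_combination h3
    · simp
  · intro k _
    unfold mp
    simp only [Pi.add_apply, Pi.mul_apply]
    split_ifs with h
    · have h3 := h2 k (fun r hr => (h r hr).symm)
      simp only [Pi.sub_apply, Pi.mul_apply]
      linear_combination h3
    · simp

end

end Eyes

end Vale.Agent.P183.R2.H332
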