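import Mathlib
import Vale.Agent.P183.R2.H332.Eyes

/-!
Planar distributive lattices with eyes: the congruences.
-/

set_option linter.all false

namespace Vale.Agent.P183.R2.H332

open Vale.Agent.P183

namespace Eyes

section

variable {m n : ℕ} {ι : Type} {x : Fin m → ι} {y : Fin n → ι} {N : ι → ℕ}
variable {K : ι → Type} [∀ l, Field (K l)]
variable (κ : ∀ l, Fin (N l) ≃ (K l)ˣ)

/-- First difference in the rows. -/
theorem exists_ht1 (x : Fin m → ι) (z z' : Car m n K) : ∃ i : ℕ, i ≤ m ∧ Ag1 x i z z' ∧
    ∀ k : Fin m, k.1 + 1 = i → z.1 k (x k) ≠ z'.1 k (x k) := by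
  classical
  have h : ∃ i : ℕ, Ag1 x i z z' := ⟨m, fun k hk => absurd k.2 (by omega)⟩
  refine ⟨Nat.find h, Nat.find_min' h (fun k hk => absurd k.2 (by omega)), Nat.find_spec h, ?_⟩
  intro k hk heq
  apply Nat.find_min h (show k.1 < Nat.find h by omega)
  intro r hr
  rcases hr.lt_or_eq with h1 | h1
  · exact Nat.find_spec h r (by omega)
  · have : k = r := Fin.ext h1
    rw [← this]
    exact heq

/-- First difference in the columns. -/
theorem exists_ht2 (y : Fin n → ι) (z z' : Car m n K) : ∃ i : ℕ, i ≤ n ∧ Ag2 y i z z' ∧
    ∀ k : Fin n, k.1 + 1 = i → z.2 k (y k) ≠ z'.2 k (y k) := by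
  classical
  have h : ∃ i : ℕ, Ag2 y i z z' := ⟨n, fun k hk => absurd k.2 (by omega)⟩
  refine ⟨Nat.find h, Nat.find_min' h (fun k hk => absurd k.2 (by omega)), Nat.find_spec h, ?_⟩
  intro k hk heq
  apply Nat.find_min h (show k.1 < Nat.find h by omega)
  intro r hr
  rcases hr.lt_or_eq with h1 | h1
  · exact Nat.find_spec h r (by omega)
  · have : k = r := Fin.ext h1
    rw [← this]
    exact heq

/-- The constant tuple which is `s` in row `k` and `t` in column `l`. -/
noncomputable def tst (k : Option (Fin m)) (l : Option (Fin n)) (s t : ∀ l, K l) :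
    Car m n K := by
  classical
  exact (fun r => if some r = k then s else 0, fun r => if some r = l then t else 0)

theorem tst_one (k : Fin m) (l : Option (Fin n)) (s t : ∀ l, K l) :
    (tst (some k) l s t).1 k = s := by
  simp [tst]

theorem tst_two (k : Option (Fin m)) (l : Fin n) (s t : ∀ l, K l) :
    (tst k (some l) s t).2 l = t := by
  simp [tst]

theorem tst_one_ne (k : Option (Fin m)) (r : Fin m) (h : some r ≠ k) (l : Option (Fin n))
    (s t : ∀ l, K l) : (tst k l s t).1 r = 0 := by
  simp [tst, h]

theorem tst_two_ne (k : Option (Fin m)) (r : Fin n) (l : Option (Fin n)) (h : some r ≠ l)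
    (s t : ∀ l, K l) : (tst k l s t).2 r = 0 := by
  simp [tst, h]

/-- If all pairs which differ at most in row `k` are related by `Y`, then `k` lies below `Y`. -/
theorem row_le (k : Fin m) (Y : Eyes x y N)
    (h : ∀ z z' : Car m n K, Ag1 x (k.1 + 1) z z' → Ag2 y 0 z z' → rel κ Y z z') :
    k.1 + 1 ≤ Y.lo.1.1 := by
  classical
  have h1 := h (tst (some k) none 1 0) 0 (by
      intro r hr
      have : some r ≠ some k := by
        intro h
        have := congrArg Fin.val (Option.some.inj h)
        omega
      rw [tst_one_ne _ _ this]
      rfl) (by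
      intro r _
      rw [tst_two_ne _ _ _ (by simp)]
      rfl)
  cases Y with
  | pt i j =>
    show k.1 + 1 ≤ i.1
    by_contra hk
    have h2 := h1.1 k (by omega)
    rw [tst_one] at h2
    exact one_ne_zero h2
  | eye i j hl t =>
    show k.1 + 1 ≤ i.1
    by_contra hk
    obtain ⟨h2, h3, h4⟩ := h1
    by_cases hki : k = i
    · subst hki
      rw [tst_one, tst_two_ne _ _ _ (by simp)] at h4
      simp at h4
    · have h5 := h2 k (by
        have : k.1 ≠ i.1 := fun h => hki (Fin.ext h)
        omega)
      rw [tst_one] at h5
      exact one_ne_zero h5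

theorem col_le (k : Fin n) (Y : Eyes x y N)
    (h : ∀ z z' : Car m n K, Ag1 x 0 z z' → Ag2 y (k.1 + 1) z z' → rel κ Y z z') :
    k.1 + 1 ≤ Y.lo.2.1 := by
  classical
  have h1 := h (tst none (some k) 0 1) 0 (by
      intro r _
      rw [tst_one_ne _ _ (by simp)]
      rfl) (by
      intro r hr
      have : some r ≠ some k := by
        intro h
        have := congrArg Fin.val (Option.some.inj h)
        omega
      rw [tst_two_ne _ _ _ this]
      rfl)
  cases Y with
  | pt i j =>
    show k.1 + 1 ≤ j.1
    by_contra hk
    have h2 := h1.2 k (by omega)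
    rw [tst_two] at h2
    exact one_ne_zero h2
  | eye i j hl t =>
    show k.1 + 1 ≤ j.1
    by_contra hk
    obtain ⟨h2, h3, h4⟩ := h1
    by_cases hki : k = j
    · subst hki
      rw [tst_two, tst_one_ne _ _ (by simp)] at h4
      simp at h4
    · have h5 := h3 k (by
        have : k.1 ≠ j.1 := fun h => hki (Fin.ext h)
        omega)
      rw [tst_two] at h5
      exact one_ne_zero h5

theorem lo_le_hi (Y : Eyes x y N) : Y.lo ≤ Y.hi := by
  cases Y with
  | pt i j => exact le_rfl
  | eye i j _ _ => exact ⟨Fin.castSucc_lt_succ.le, Fin.castSucc_lt_succ.le⟩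

theorem rel_le_iff (X Y : Eyes x y N) : rel κ X ≤ rel κ Y ↔ X ≤ Y := by
  classical
  constructor
  · intro h
    -- the lower corner
    have hlo : X.lo ≤ Y.lo := by
      constructor
      · show X.lo.1.1 ≤ Y.lo.1.1
        rcases Nat.eq_zero_or_pos X.lo.1.1 with h0 | h0
        · rw [h0]
          exact Nat.zero_le _
        · obtain ⟨k, hk⟩ : ∃ k, X.lo.1.1 = k + 1 := ⟨X.lo.1.1 - 1, by omega⟩
          have h1 : k < m := by
            have := X.lo.1.2
            omega
          have h2 := row_le κ (⟨k, h1⟩ : Fin m) Y (fun z z' hz1 hz2 =>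
            h (rel_lo κ X (hz1.mono (show k + 1 ≤ X.lo.1.1 by omega))
              (hz2.mono (Nat.zero_le _))))
          have h3 : k + 1 ≤ Y.lo.1.1 := h2
          omega
      · show X.lo.2.1 ≤ Y.lo.2.1
        rcases Nat.eq_zero_or_pos X.lo.2.1 with h0 | h0
        · rw [h0]
          exact Nat.zero_le _
        · obtain ⟨k, hk⟩ : ∃ k, X.lo.2.1 = k + 1 := ⟨X.lo.2.1 - 1, by omega⟩
          have h1 : k < n := by
            have := X.lo.2.2
            omega
          have h2 := col_le κ (⟨k, h1⟩ : Fin n) Y (fun z z' hz1 hz2 =>
            h (rel_lo κ X (hz1.mono (Nat.zero_le _))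
              (hz2.mono (show k + 1 ≤ X.lo.2.1 by omega))))
          have h3 : k + 1 ≤ Y.lo.2.1 := h2
          omega
    cases X with
    | pt i j => exact Or.inr hlo
    | eye i j hl t =>
      have hl1 : i.1 ≤ Y.lo.1.1 := hlo.1
      have hl2 : j.1 ≤ Y.lo.2.1 := hlo.2
      have hs : ∀ l, l = x i → (Pi.single (x i) (κ (x i) t : K (x i)) : ∀ l, K l) l ≠ 0 := by
        rintro _ rfl
        rw [Pi.single_eq_same]
        exact Units.ne_zero _
      have h1 : rel κ Y (tst (some i) (some j) 1 (Pi.single (x i) (κ (x i) t : K (x i))))
          (0 : Car m n K) := by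
        apply h
        refine ⟨?_, ?_, ?_⟩
        · intro r hr
          have : some r ≠ some i := by
            intro h
            have := congrArg Fin.val (Option.some.inj h)
            omega
          rw [tst_one_ne _ _ this]
          rfl
        · intro r hr
          have : some r ≠ some j := by
            intro h
            have := congrArg Fin.val (Option.some.inj h)
            omega
          rw [tst_two_ne _ _ _ this]
          rfl
        · rw [tst_one, tst_two]
          simp
      cases Y with
      | pt i' j' =>
        right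
        have hi1 : i.1 ≤ i'.1 := hl1
        have hj1 : j.1 ≤ j'.1 := hl2
        have hi2 : i.1 ≠ i'.1 := by
          intro h2
          have h3 := h1.1 i (by omega)
          rw [tst_one] at h3
          exact one_ne_zero h3
        have hj2 : j.1 ≠ j'.1 := by
          intro h2
          have h3 := h1.2 j (by omega)
          rw [tst_two] at h3
          exact hs _ hl.symm h3
        constructor
        · show i.1 + 1 ≤ i'.1
          omega
        · show j.1 + 1 ≤ j'.1
          omega
      | eye i' j' hl' t' =>
        have hi1 : i.1 ≤ i'.1 := hl1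
        have hj1 : j.1 ≤ j'.1 := hl2
        obtain ⟨h2, h3, h4⟩ := h1
        by_cases hi2 : i = i'
        · subst hi2
          by_cases hj2 : j = j'
          · subst hj2
            left
            rw [tst_one, tst_two] at h4
            simp only [Pi.single_eq_same] at h4
            have h5 : (κ (x i) t' : K (x i)) = (κ (x i) t : K (x i)) := by
              simpa using h4
            have h6 : t' = t := (κ (x i)).injective (Units.ext h5)
            rw [h6]
          · exfalso
            rw [tst_one, tst_two_ne _ _ _ (by
              intro h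
              exact hj2 (Option.some.inj h).symm)] at h4
            simp at h4
        · by_cases hj2 : j = j'
          · exfalso
            subst hj2
            rw [tst_two, tst_one_ne _ _ (by
              intro h
              exact hi2 (Option.some.inj h).symm)] at h4
            have h5 : x i' = x i := by rw [hl, hl']
            apply hs _ h5
            simpa using h4.symm
          · right
            constructor
            · show i.1 + 1 ≤ i'.1
              have : i.1 ≠ i'.1 := fun h => hi2 (Fin.ext h)
              omega
            · show j.1 + 1 ≤ j'.1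
              have : j.1 ≠ j'.1 := fun h => hj2 (Fin.ext h)
              omega
  · rintro (rfl | h)
    · exact le_rfl
    · intro z z' hz
      obtain ⟨h1, h2⟩ := rel_hi κ X hz
      exact rel_lo κ Y (h1.mono h.1) (h2.mono h.2)

end

end Eyes

end Vale.Agent.P183.R2.H332
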