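import Mathlib
import Vale.Agent.P183.R2.H332.Eyes2

/-!
Planar distributive lattices with eyes: the classification of the invariant equivalences.
-/

set_option linter.all false

namespace Vale.Agent.P183.R2.H332

open Vale.Agent.P183

namespace Eyes

section

variable {m n : ℕ} {ι : Type} {x : Fin m → ι} {y : Fin n → ι} {N : ι → ℕ}
variable {K : ι → Type} [∀ l, Field (K l)]
variable (κ : ∀ l, Fin (N l) ≃ (K l)ˣ)

/-- An equivalence which is preserved by all maps preserving the relations of `S`. -/
structure Inv (S : Set (Eyes x y N)) (ρ : Setoid (Car m n K)) : Prop where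
  bot : ∀ z z' : Car m n K, Ag1 x 0 z z' → Ag2 y 0 z z' → ρ z z'
  maps : ∀ f : Car m n K → Car m n K,
    (∀ Y ∈ S, ∀ z z', rel κ Y z z' → rel κ Y (f z) (f z')) →
      ∀ z z', ρ z z' → ρ (f z) (f z')

variable {κ}
variable {S : Set (Eyes x y N)} {ρ : Setoid (Car m n K)}

theorem gen (hρ : Inv κ S ρ) {b b' : Car m n K} (h : ρ b b') (c : ∀ l, K l) {d d' : Car m n K}
    (h1 : ∀ k : Fin m, Ag1 x (k.1 + 1) b b' →
      d.1 k (x k) - d'.1 k (x k) = c (x k) * (b.1 k (x k) - b'.1 k (x k)))
    (h2 : ∀ k : Fin n, Ag2 y (k.1 + 1) b b' →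
      d.2 k (y k) - d'.2 k (y k) = c (y k) * (b.2 k (y k) - b'.2 k (y k))) : ρ d d' := by
  have h3 := hρ.maps (mp x y c b b' d d')
    (fun Y _ z z' hz => mp_rel κ c b b' d d' Y z z' hz) b b' h
  rw [mp_b] at h3
  obtain ⟨h4, h5⟩ := mp_b' (x := x) (y := y) c b b' d d' h1 h2
  exact Setoid.trans' ρ h3 (hρ.bot _ _ h4 h5)

theorem gen_row (hρ : Inv κ S ρ) {b b' : Car m n K} (h : ρ b b') (k : Fin m)
    (hk : Ag1 x (k.1 + 1) b b') (hne : b.1 k (x k) ≠ b'.1 k (x k))
    (hv : ∀ l : Fin n, Ag2 y (l.1 + 1) b b' → b.2 l (y l) = b'.2 l (y l) ∨ y l ≠ x k)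
    (d d' : Car m n K) (hd1 : Ag1 x (k.1 + 1) d d') (hd2 : Ag2 y 0 d d') : ρ d d' := by
  classical
  refine gen hρ h (Pi.single (x k)
    ((d.1 k (x k) - d'.1 k (x k)) / (b.1 k (x k) - b'.1 k (x k)))) ?_ ?_
  · intro r hr
    rcases lt_trichotomy r.1 k.1 with h1 | h1 | h1
    · exact absurd (hr k h1) hne
    · have : r = k := Fin.ext h1
      subst this
      rw [Pi.single_eq_same, div_mul_cancel₀ _ (sub_ne_zero.2 hne)]
    · rw [hk r h1, hd1 r h1, sub_self, sub_self, mul_zero]
  · intro l hl
    rw [hd2 l (Nat.zero_le _), sub_self]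
    rcases hv l hl with h1 | h1
    · rw [h1, sub_self, mul_zero]
    · rw [Pi.single_eq_of_ne h1, zero_mul]

theorem gen_col (hρ : Inv κ S ρ) {b b' : Car m n K} (h : ρ b b') (k : Fin n)
    (hk : Ag2 y (k.1 + 1) b b') (hne : b.2 k (y k) ≠ b'.2 k (y k))
    (hv : ∀ l : Fin m, Ag1 x (l.1 + 1) b b' → b.1 l (x l) = b'.1 l (x l) ∨ x l ≠ y k)
    (d d' : Car m n K) (hd1 : Ag1 x 0 d d') (hd2 : Ag2 y (k.1 + 1) d d') : ρ d d' := by
  classical
  refine gen hρ h (Pi.single (y k)
    ((d.2 k (y k) - d'.2 k (y k)) / (b.2 k (y k) - b'.2 k (y k)))) ?_ ?_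
  · intro l hl
    rw [hd1 l (Nat.zero_le _), sub_self]
    rcases hv l hl with h1 | h1
    · rw [h1, sub_self, mul_zero]
    · rw [Pi.single_eq_of_ne h1, zero_mul]
  · intro r hr
    rcases lt_trichotomy r.1 k.1 with h1 | h1 | h1
    · exact absurd (hr k h1) hne
    · have : r = k := Fin.ext h1
      subst this
      rw [Pi.single_eq_same, div_mul_cancel₀ _ (sub_ne_zero.2 hne)]
    · rw [hk r h1, hd2 r h1, sub_self, sub_self, mul_zero]

theorem gen_eye (hρ : Inv κ S ρ) {b b' : Car m n K} (h : ρ b b') (k : Fin m) (l : Fin n)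
    (hkl : x k = y l) (t : Fin (N (x k))) (hb : rel κ (eye k l hkl t : Eyes x y N) b b')
    (hne : b.1 k (x k) ≠ b'.1 k (x k)) (d d' : Car m n K)
    (hd : rel κ (eye k l hkl t : Eyes x y N) d d') : ρ d d' := by
  classical
  obtain ⟨hb1, hb2, hb3⟩ := hb
  obtain ⟨hd1, hd2, hd3⟩ := hd
  have hne' : b.1 k (x k) - b'.1 k (x k) ≠ 0 := sub_ne_zero.2 hne
  have hne2 : b.2 l (y l) ≠ b'.2 l (y l) := by
    intro h1
    have h2 : b.2 l (x k) = b'.2 l (x k) := by
      rw [hkl]
      exact h1
    rw [h2, sub_self] at hb3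
    exact mul_ne_zero (Units.ne_zero _) hne' hb3
  refine gen hρ h (Pi.single (x k)
    ((d.1 k (x k) - d'.1 k (x k)) / (b.1 k (x k) - b'.1 k (x k)))) ?_ ?_
  · intro r hr
    rcases lt_trichotomy r.1 k.1 with h1 | h1 | h1
    · exact absurd (hr k h1) hne
    · have : r = k := Fin.ext h1
      subst this
      rw [Pi.single_eq_same, div_mul_cancel₀ _ hne']
    · rw [hb1 r h1, hd1 r h1, sub_self, sub_self, mul_zero]
  · intro r hr
    rcases lt_trichotomy r.1 l.1 with h1 | h1 | h1
    · exact absurd (hr l h1) hne2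
    · have : r = l := Fin.ext h1
      subst this
      have key : ∀ q, q = x k → d.2 r q - d'.2 r q =
          (Pi.single (x k) ((d.1 k (x k) - d'.1 k (x k)) / (b.1 k (x k) - b'.1 k (x k))) :
            ∀ l, K l) q * (b.2 r q - b'.2 r q) := by
        rintro _ rfl
        rw [Pi.single_eq_same, ← hb3, ← hd3]
        field_simp
      exact key _ hkl.symm
    · rw [hb2 r h1, hd2 r h1, sub_self, sub_self, mul_zero]

/-- The invariant equivalences. -/
theorem classify (hρ : Inv κ S ρ) : ∃ X : Eyes x y N, rel κ X = ρ := by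
  classical
  let Row : ℕ → Prop := fun i => ∀ d d' : Car m n K, Ag1 x i d d' → Ag2 y 0 d d' → ρ d d'
  let Col : ℕ → Prop := fun j => ∀ d d' : Car m n K, Ag1 x 0 d d' → Ag2 y j d d' → ρ d d'
  let I := Nat.findGreatest Row m
  let J := Nat.findGreatest Col n
  have hR0 : Row 0 := hρ.bot
  have hC0 : Col 0 := hρ.bot
  have hI : Row I := Nat.findGreatest_spec (Nat.zero_le m) hR0
  have hJ : Col J := Nat.findGreatest_spec (Nat.zero_le n) hC0
  have hIm : I ≤ m := Nat.findGreatest_le m
  have hJn : J ≤ n := Nat.findGreatest_le n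
  have hIg : ∀ i, i ≤ m → Row i → i ≤ I := fun i hi h => Nat.le_findGreatest hi h
  have hJg : ∀ j, j ≤ n → Col j → j ≤ J := fun j hj h => Nat.le_findGreatest hj h
  have hIJ : ∀ d d' : Car m n K, Ag1 x I d d' → Ag2 y J d d' → ρ d d' := by
    intro d d' h1 h2
    have h3 : ρ d (d'.1, d.2) := hI d (d'.1, d.2) h1 (fun _ _ => rfl)
    have h4 : ρ (d'.1, d.2) d' := hJ (d'.1, d.2) d' (fun _ _ => rfl) h2
    exact Setoid.trans' ρ h3 h4
  have dicho : ∀ b b' : Car m n K, ρ b b' → (Ag1 x I b b' ∧ Ag2 y J b b') ∨
      ∃ (k : Fin m) (l : Fin n) (hkl : x k = y l) (t : Fin (N (x k))), k.1 = I ∧ l.1 = J ∧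
        rel κ (eye k l hkl t : Eyes x y N) b b' ∧ b.1 k (x k) ≠ b'.1 k (x k) := by
    intro b b' hb
    obtain ⟨i0, hi0, hA, hAne⟩ := exists_ht1 x b b'
    obtain ⟨j0, hj0, hB, hBne⟩ := exists_ht2 y b b'
    rcases Nat.eq_zero_or_pos i0 with rfl | hip
    · rcases Nat.eq_zero_or_pos j0 with rfl | hjp
      · exact Or.inl ⟨hA.mono (Nat.zero_le _), hB.mono (Nat.zero_le _)⟩
      · obtain ⟨l, rfl⟩ : ∃ l : Fin n, j0 = l.1 + 1 := ⟨⟨j0 - 1, by omega⟩, by simp; omega⟩
        have h1 : Col (l.1 + 1) := gen_col hρ hb l hB (hBne l rfl)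
          (fun r _ => Or.inl (hA r (Nat.zero_le _)))
        exact Or.inl ⟨hA.mono (Nat.zero_le _), hB.mono (hJg _ hj0 h1)⟩
    · obtain ⟨k, rfl⟩ : ∃ k : Fin m, i0 = k.1 + 1 := ⟨⟨i0 - 1, by omega⟩, by simp; omega⟩
      have hkne := hAne k rfl
      rcases Nat.eq_zero_or_pos j0 with rfl | hjp
      · have h1 : Row (k.1 + 1) := gen_row hρ hb k hA hkne
          (fun r _ => Or.inl (hB r (Nat.zero_le _)))
        exact Or.inl ⟨hA.mono (hIg _ hi0 h1), hB.mono (Nat.zero_le _)⟩
      · obtain ⟨l, rfl⟩ : ∃ l : Fin n, j0 = l.1 + 1 := ⟨⟨j0 - 1, by omega⟩, by simp; omega⟩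
        have hlne := hBne l rfl
        by_cases hkl : x k = y l
        · -- the difference is in an eye
          have hlne' : b.2 l (x k) - b'.2 l (x k) ≠ 0 := by
            rw [hkl]
            exact sub_ne_zero.2 hlne
          have hkne' : b.1 k (x k) - b'.1 k (x k) ≠ 0 := sub_ne_zero.2 hkne
          obtain ⟨t, ht⟩ := (κ (x k)).surjective (Units.mk0 _ (div_ne_zero hlne' hkne'))
          have hbe : rel κ (eye k l hkl t : Eyes x y N) b b' := by
            refine ⟨hA, hB, ?_⟩
            rw [ht, Units.val_mk0, div_mul_cancel₀ _ hkne']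
          have hge := gen_eye hρ hb k l hkl t hbe hkne
          have hRk : Row k.1 := fun d d' h1 h2 => hge d d'
            (rel_lo κ (eye k l hkl t : Eyes x y N) h1 (h2.mono (Nat.zero_le _)))
          have hCl : Col l.1 := fun d d' h1 h2 => hge d d'
            (rel_lo κ (eye k l hkl t : Eyes x y N) (h1.mono (Nat.zero_le _)) h2)
          have hkI := hIg k.1 (by omega) hRk
          have hlJ := hJg l.1 (by omega) hCl
          by_cases hkI' : k.1 < I
          · left
            have h1 : ρ (b.1, b'.2) b' := hI (b.1, b'.2) b' (hA.mono hkI') (fun _ _ => rfl)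
            have h2 : ρ b (b.1, b'.2) := Setoid.trans' ρ hb (Setoid.symm' ρ h1)
            have h3 : Col (l.1 + 1) := gen_col hρ h2 l hB hlne (fun r _ => Or.inl rfl)
            exact ⟨hA.mono hkI', hB.mono (hJg _ hj0 h3)⟩
          · by_cases hlJ' : l.1 < J
            · left
              have h1 : ρ (b'.1, b.2) b' := hJ (b'.1, b.2) b' (fun _ _ => rfl) (hB.mono hlJ')
              have h2 : ρ b (b'.1, b.2) := Setoid.trans' ρ hb (Setoid.symm' ρ h1)
              have h3 : Row (k.1 + 1) := gen_row hρ h2 k hA hkne (fun r _ => Or.inl rfl)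
              exact ⟨hA.mono (hIg _ hi0 h3), hB.mono hlJ'⟩
            · right
              exact ⟨k, l, hkl, t, by omega, by omega, hbe, hkne⟩
        · left
          have h1 : Row (k.1 + 1) := gen_row hρ hb k hA hkne (by
            intro r hr
            rcases lt_trichotomy r.1 l.1 with h1 | h1 | h1
            · exact absurd (hr l h1) hlne
            · right
              have : r = l := Fin.ext h1
              rw [this]
              exact fun h => hkl h.symm
            · exact Or.inl (hB r h1))
          have h2 : Col (l.1 + 1) := gen_col hρ hb l hB hlne (by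
            intro r hr
            rcases lt_trichotomy r.1 k.1 with h1 | h1 | h1
            · exact absurd (hr k h1) hkne
            · right
              have : r = k := Fin.ext h1
              rw [this]
              exact hkl
            · exact Or.inl (hA r h1))
          exact ⟨hA.mono (hIg _ hi0 h1), hB.mono (hJg _ hj0 h2)⟩
  by_cases hall : ∀ b b' : Car m n K, ρ b b' → Ag1 x I b b' ∧ Ag2 y J b b'
  · refine ⟨pt ⟨I, by omega⟩ ⟨J, by omega⟩, ?_⟩
    apply Setoid.ext
    intro b b'
    exact ⟨fun h => hIJ b b' h.1 h.2, fun h => hall b b' h⟩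
  · push Not at hall
    obtain ⟨b, b', hb, hbn⟩ := hall
    rcases dicho b b' hb with h1 | ⟨k, l, hkl, t, hk, hl, hbe, hne⟩
    · exact absurd h1.2 (hbn h1.1)
    refine ⟨eye k l hkl t, ?_⟩
    apply Setoid.ext
    intro d d'
    constructor
    · intro hd
      exact gen_eye hρ hb k l hkl t hbe hne d d' hd
    · intro hd
      rcases dicho d d' hd with h1 | ⟨k', l', hkl', t', hk', hl', hde, hdne⟩
      · refine rel_lo κ (eye k l hkl t : Eyes x y N) ?_ ?_
        · show Ag1 x k.1 d d'
          rw [hk]
          exact h1.1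
        · show Ag2 y l.1 d d'
          rw [hl]
          exact h1.2
      · obtain rfl : k' = k := Fin.ext (hk'.trans hk.symm)
        obtain rfl : l' = l := Fin.ext (hl'.trans hl.symm)
        by_cases htt : t' = t
        · rw [← htt]
          exact hde
        · exfalso
          have e1 : ∀ s : Fin (N (x k')), rel κ (eye k' l' hkl s : Eyes x y N)
              (tst (some k') (some l') 1 (Pi.single (x k') (κ (x k') s : K (x k'))))
              (0 : Car m n K) := by
            intro s
            refine ⟨?_, ?_, ?_⟩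
            · intro r hr
              have : some r ≠ some k' := by
                intro h
                have := congrArg Fin.val (Option.some.inj h)
                omega
              rw [tst_one_ne _ _ this]
              rfl
            · intro r hr
              have : some r ≠ some l' := by
                intro h
                have := congrArg Fin.val (Option.some.inj h)
                omega
              rw [tst_two_ne _ _ _ this]
              rfl
            · rw [tst_one, tst_two]
              simp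
          have h2 := gen_eye hρ hb k' l' hkl t hbe hne _ _ (e1 t)
          have h3 := gen_eye hρ hd k' l' hkl' t' hde hdne _ _ (e1 t')
          have h4 := Setoid.trans' ρ h2 (Setoid.symm' ρ h3)
          have h5 : Col (l'.1 + 1) := by
            refine gen_col hρ h4 l' ?_ ?_ (fun r _ => Or.inl rfl)
            · intro r hr
              have : some r ≠ some l' := by
                intro h
                have := congrArg Fin.val (Option.some.inj h)
                omega
              rw [tst_two_ne _ _ _ this, tst_two_ne _ _ _ this]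
            · rw [tst_two, tst_two]
              have key : ∀ q, q = x k' →
                  (Pi.single (x k') (κ (x k') t : K (x k')) : ∀ l, K l) q ≠
                    (Pi.single (x k') (κ (x k') t' : K (x k')) : ∀ l, K l) q := by
                rintro _ rfl
                rw [Pi.single_eq_same, Pi.single_eq_same]
                intro h
                exact htt ((κ (x k')).injective (Units.ext h)).symm
              exact key _ hkl.symm
          have h6 := hJg (l'.1 + 1) l'.2 h5
          omega

end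

end Eyes

end Vale.Agent.P183.R2.H332
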