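import Mathlib
import Vale.Agent.P183.R2.H332.Eyes3

/-!
Planar distributive lattices with eyes are representable.
-/

set_option linter.all false

namespace Vale.Agent.P183.R2.H332

open Vale.Agent.P183

namespace Eyes

section

variable {m n : ℕ} {ι : Type} {x : Fin m → ι} {y : Fin n → ι} {N : ι → ℕ}

theorem lo_lt_hi_eye (i : Fin m) (j : Fin n) (h : x i = y j) (t : Fin (N (x i))) :
    ¬ (eye i j h t : Eyes x y N).hi ≤ (eye i j h t : Eyes x y N).lo := by
  intro h1
  have h2 : i.1 + 1 ≤ i.1 := h1.1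
  omega

theorem le_antisymm' {X Y : Eyes x y N} (h : X ≤ Y) (h' : Y ≤ X) : X = Y := by
  rcases h with h | h
  · exact h
  rcases h' with h' | h'
  · exact h'.symm
  have hX : X.hi ≤ X.lo := h.trans ((lo_le_hi Y).trans h')
  have hY : Y.hi ≤ Y.lo := h'.trans ((lo_le_hi X).trans h)
  cases X with
  | eye i j hl t => exact absurd hX (lo_lt_hi_eye i j hl t)
  | pt i j =>
    cases Y with
    | eye i j hl t => exact absurd hY (lo_lt_hi_eye i j hl t)
    | pt i' j' =>
      have h1 : (i, j) = (i', j') := le_antisymm h h'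
      have h2 : i = i' := congrArg Prod.fst h1
      have h3 : j = j' := congrArg Prod.snd h1
      rw [h2, h3]

/-- The elements which satisfy a family of cuts: `X ≤ w` or `v ≤ X`. -/
def Cuts (C : Set (Eyes x y N × Eyes x y N)) : Set (Eyes x y N) :=
  {X | ∀ c ∈ C, X ≤ c.1 ∨ c.2 ≤ X}

variable {K : ι → Type} [∀ l, Field (K l)]

/-- Every family of cuts gives a representable poset. -/
theorem rep_cuts [∀ l, Finite (K l)] [Finite ι] (κ : ∀ l, Fin (N l) ≃ (K l)ˣ)
    (C : Set (Eyes x y N × Eyes x y N)) :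
    Representable {X : Eyes x y N // X ∈ Cuts C} := by
  classical
  let S : Set (Eyes x y N) := Cuts C
  let F : Set (Car m n K → Car m n K) :=
    {f | ∀ Y ∈ S, ∀ z z', rel κ Y z z' → rel κ Y (f z) (f z')}
  let τ : Setoid (Car m n K) := rel κ (pt 0 0 : Eyes x y N)
  have hτ : ∀ X : Eyes x y N, τ ≤ rel κ X := by
    intro X z z' hz
    exact rel_lo κ X (Ag1.mono (Nat.zero_le _) hz.1) (Ag2.mono (Nat.zero_le _) hz.2)
  have hrep : Representable {ρ : Setoid (Car m n K) //
      τ ≤ ρ ∧ ∀ f ∈ F, ∀ b b', ρ b b' → ρ (f b) (f b')} :=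
    representable_of_adm τ F ⟨OrderIso.refl _⟩
  let g : {X : Eyes x y N // X ∈ Cuts C} → {ρ : Setoid (Car m n K) //
      τ ≤ ρ ∧ ∀ f ∈ F, ∀ b b', ρ b b' → ρ (f b) (f b')} := fun X =>
    ⟨rel κ X.1, hτ X.1, fun f hf b b' hb => hf X.1 X.2 b b' hb⟩
  have hg : ∀ X Y, g X ≤ g Y ↔ X ≤ Y := fun X Y => rel_le_iff κ X.1 Y.1
  have hbij : Function.Bijective g := by
    constructor
    · intro X Y h
      apply Subtype.ext
      exact le_antisymm' ((hg X Y).1 h.le) ((hg Y X).1 h.ge)
    · rintro ⟨ρ, hρ1, hρ2⟩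
      have hinv : Inv κ S ρ :=
        { bot := fun z z' h1 h2 => hρ1 ⟨h1, h2⟩
          maps := fun f hf z z' hz => hρ2 f hf z z' hz }
      obtain ⟨X, hX⟩ := classify hinv
      have hXS : X ∈ Cuts C := by
        rintro ⟨w, v⟩ hc
        by_cases hw : X ≤ w
        · exact Or.inl hw
        · right
          rw [← rel_le_iff κ] at hw
          have hex : ∃ b b' : Car m n K, rel κ X b b' ∧ ¬ rel κ w b b' := by
            by_contra hcon
            push Not at hcon
            exact hw (fun b b' hb => hcon b b' hb)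
          obtain ⟨b, b', hb, hbw⟩ := hex
          show v ≤ X
          rw [← rel_le_iff κ, hX]
          intro d d' hd
          have h1 := hρ2 (fun z => if rel κ w b z then d else d') (by
            intro Y hY z z' hz
            rcases hY (w, v) hc with h2 | h2
            · have h3 : rel κ w z z' := (rel_le_iff κ Y w).2 h2 hz
              have h4 : rel κ w b z ↔ rel κ w b z' :=
                ⟨fun h => Setoid.trans' _ h h3, fun h => Setoid.trans' _ h (Setoid.symm' _ h3)⟩
              by_cases h5 : rel κ w b z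
              · simp only [if_pos h5, if_pos (h4.1 h5)]
                exact Setoid.refl' _ _
              · simp only [if_neg h5, if_neg (fun h => h5 (h4.2 h))]
                exact Setoid.refl' _ _
            · have h3 : rel κ Y d d' := (rel_le_iff κ v Y).2 h2 hd
              by_cases h5 : rel κ w b z
              · by_cases h6 : rel κ w b z'
                · simp only [if_pos h5, if_pos h6]
                  exact Setoid.refl' _ _
                · simp only [if_pos h5, if_neg h6]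
                  exact h3
              · by_cases h6 : rel κ w b z'
                · simp only [if_neg h5, if_pos h6]
                  exact Setoid.symm' _ h3
                · simp only [if_neg h5, if_neg h6]
                  exact Setoid.refl' _ _) b b' (by rw [← hX]; exact hb)
          simp only [if_pos (Setoid.refl' (rel κ w) b), if_neg hbw] at h1
          exact h1
      exact ⟨⟨X, hXS⟩, Subtype.ext hX⟩
  obtain ⟨A, ⟨e⟩⟩ := hrep
  exact ⟨A, ⟨(⟨Equiv.ofBijective g hbij, fun {X Y} => hg X Y⟩ : {X : Eyes x y N // X ∈ Cuts C} ≃o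
    {ρ : Setoid (Car m n K) // τ ≤ ρ ∧ ∀ f ∈ F, ∀ b b', ρ b b' → ρ (f b) (f b')}).trans e⟩⟩

/-- A sublattice of a product of two chains is cut out by its projections. -/
theorem mem_of_corners (D : Sublattice (Fin (m + 1) × Fin (n + 1)))
    (h1 : ∀ i, ∃ j, (i, j) ∈ D) (h2 : ∀ j, ∃ i, (i, j) ∈ D) {i : Fin (m + 1)} {j : Fin (n + 1)}
    (p1 : ∃ i1 j1, (i1, j1) ∈ D ∧ i ≤ i1 ∧ j1 ≤ j) (p2 : ∃ i2 j2, (i2, j2) ∈ D ∧ i2 ≤ i ∧ j ≤ j2) :
    (i, j) ∈ D := by
  obtain ⟨i1, j1, hD1, hi1, hj1⟩ := p1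
  obtain ⟨i2, j2, hD2, hi2, hj2⟩ := p2
  obtain ⟨a, ha⟩ := h1 i
  obtain ⟨b, hb⟩ := h2 j
  have e1 : (i, a) ⊓ (i1, j1) ∈ D := D.infClosed ha hD1
  have e2 : (i, a) ⊔ (i2, j2) ∈ D := D.supClosed ha hD2
  have e3 : ((b, j) ⊔ ((i, a) ⊓ (i1, j1))) ⊓ ((i, a) ⊔ (i2, j2)) ∈ D :=
    D.infClosed (D.supClosed hb e1) e2
  have e4 : ((b, j) ⊔ ((i, a) ⊓ (i1, j1))) ⊓ ((i, a) ⊔ (i2, j2)) = (i, j) := by
    apply Prod.ext
    · show (b ⊔ (i ⊓ i1)) ⊓ (i ⊔ i2) = i
      rw [inf_eq_left.2 hi1, sup_eq_left.2 hi2]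
      exact inf_eq_right.2 le_sup_right
    · show (j ⊔ (a ⊓ j1)) ⊓ (a ⊔ j2) = j
      rw [sup_eq_left.2 (inf_le_right.trans hj1)]
      exact inf_eq_left.2 (hj2.trans le_sup_right)
  rw [e4] at e3
  exact e3

/-- The cuts which define a sublattice of the grid. -/
def cutsOf (D : Sublattice (Fin (m + 1) × Fin (n + 1))) : Set (Eyes x y N × Eyes x y N) :=
  {c | (∃ (i : Fin m) (j : Fin (n + 1)), (∀ i' j', (i', j') ∈ D → i.succ ≤ i' → j ≤ j') ∧
      c = (pt i.castSucc (Fin.last n), pt 0 j)) ∨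
    ∃ (i : Fin (m + 1)) (j : Fin n), (∀ i' j', (i', j') ∈ D → j.succ ≤ j' → i ≤ i') ∧
      c = (pt (Fin.last m) j.castSucc, pt i 0)}

theorem inside_iff (D : Sublattice (Fin (m + 1) × Fin (n + 1)))
    (h1 : ∀ i, ∃ j, (i, j) ∈ D) (h2 : ∀ j, ∃ i, (i, j) ∈ D) (X : Eyes x y N) :
    X.Inside (D : Set (Fin (m + 1) × Fin (n + 1))) ↔ X ∈ Cuts (cutsOf (x := x) (y := y) (N := N) D) := by
  classical
  have h00 : ((0 : Fin (m + 1)), (0 : Fin (n + 1))) ∈ D := by
    obtain ⟨a, ha⟩ := h1 0
    obtain ⟨b, hb⟩ := h2 0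
    have h := D.infClosed ha hb
    have e : ((0 : Fin (m + 1)), a) ⊓ (b, (0 : Fin (n + 1))) = (0, 0) := by
      apply Prod.ext
      · exact inf_eq_left.2 (Fin.zero_le _)
      · exact inf_eq_right.2 (Fin.zero_le _)
    rw [e] at h
    exact h
  constructor
  · intro hX
    have hX1 : (X.hi.1, X.lo.2) ∈ D := by
      cases X with
      | pt i j => exact hX
      | eye i j _ _ => exact hX.2.1
    have hX2 : (X.lo.1, X.hi.2) ∈ D := by
      cases X with
      | pt i j => exact hX
      | eye i j _ _ => exact hX.2.2.1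
    rintro c (⟨i, j, hc, rfl⟩ | ⟨i, j, hc, rfl⟩)
    · by_cases hi : X.hi.1 ≤ i.castSucc
      · left
        exact Or.inr ⟨hi, Fin.le_last _⟩
      · right
        right
        refine ⟨Fin.zero_le _, hc _ _ hX1 ?_⟩
        show i.1 + 1 ≤ X.hi.1.1
        have h3 : ¬ X.hi.1.1 ≤ i.1 := hi
        omega
    · by_cases hi : X.hi.2 ≤ j.castSucc
      · left
        exact Or.inr ⟨Fin.le_last _, hi⟩
      · right
        right
        refine ⟨hc _ _ hX2 ?_, Fin.zero_le _⟩
        show j.1 + 1 ≤ X.hi.2.1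
        have h3 : ¬ X.hi.2.1 ≤ j.1 := hi
        omega
  · intro hX
    -- a point of `D` to the right and below
    have p1 : ∀ i j, (i, j) = (X.hi.1, X.lo.2) → ∃ i1 j1, (i1, j1) ∈ D ∧ i ≤ i1 ∧ j1 ≤ j := by
      intro i j hij
      by_contra hcon
      push Not at hcon
      have hi0 : i ≠ 0 := by
        rintro rfl
        exact absurd (Fin.zero_le j) (hcon 0 0 h00 le_rfl).not_ge
      obtain ⟨k, rfl⟩ := Fin.exists_succ_eq.2 hi0
      obtain ⟨a, ha⟩ := h1 k.succ
      have hja : j < a := hcon _ _ ha le_rfl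
      have hjn : j.1 < n := by
        have := a.2
        have h3 : j.1 < a.1 := hja
        omega
      have hmem := hX (pt k.castSucc (Fin.last n), pt 0 (⟨j.1 + 1, by omega⟩ : Fin (n + 1)))
        (Or.inl ⟨k, ⟨j.1 + 1, by omega⟩, fun i' j' hD hk => hcon i' j' hD hk, rfl⟩)
      have e1 : k.succ = X.hi.1 := congrArg Prod.fst hij
      have e2 : j = X.lo.2 := congrArg Prod.snd hij
      rcases hmem with h3 | h3
      · rcases h3 with h3 | h3
        · have h4 : X.hi.1 = k.castSucc := by rw [h3]; rfl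
          rw [← e1] at h4
          exact absurd (congrArg Fin.val h4) (by simp)
        · have h4 : X.hi.1 ≤ k.castSucc := h3.1
          rw [← e1] at h4
          have h5 : k.1 + 1 ≤ k.1 := h4
          omega
      · rcases h3 with h3 | h3
        · have h4 : X.lo.2 = ⟨j.1 + 1, by omega⟩ := (congrArg (fun Y => (lo Y).2) h3).symm
          rw [← e2] at h4
          have h5 : j.1 = j.1 + 1 := congrArg Fin.val h4
          omega
        · have h4 : (⟨j.1 + 1, by omega⟩ : Fin (n + 1)) ≤ X.lo.2 := h3.2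
          rw [← e2] at h4
          have h5 : j.1 + 1 ≤ j.1 := h4
          omega
    have p2 : ∀ i j, (i, j) = (X.lo.1, X.hi.2) → ∃ i2 j2, (i2, j2) ∈ D ∧ i2 ≤ i ∧ j ≤ j2 := by
      intro i j hij
      by_contra hcon
      push Not at hcon
      have hcon' : ∀ i2 j2, (i2, j2) ∈ D → j ≤ j2 → i < i2 := by
        intro i2 j2 hD hj
        by_contra h
        exact absurd hj (hcon i2 j2 hD (not_lt.1 h)).not_ge
      have hj0 : j ≠ 0 := by
        rintro rfl
        exact absurd (Fin.zero_le i) (hcon' 0 0 h00 le_rfl).not_ge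
      obtain ⟨k, rfl⟩ := Fin.exists_succ_eq.2 hj0
      obtain ⟨a, ha⟩ := h2 k.succ
      have hja : i < a := hcon' _ _ ha le_rfl
      have hjn : i.1 < m := by
        have := a.2
        have h3 : i.1 < a.1 := hja
        omega
      have hmem := hX (pt (Fin.last m) k.castSucc, pt (⟨i.1 + 1, by omega⟩ : Fin (m + 1)) 0)
        (Or.inr ⟨⟨i.1 + 1, by omega⟩, k, fun i' j' hD hk => hcon' i' j' hD hk, rfl⟩)
      have e1 : i = X.lo.1 := congrArg Prod.fst hij
      have e2 : k.succ = X.hi.2 := congrArg Prod.snd hij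
      rcases hmem with h3 | h3
      · rcases h3 with h3 | h3
        · have h4 : X.hi.2 = k.castSucc := by rw [h3]; rfl
          rw [← e2] at h4
          exact absurd (congrArg Fin.val h4) (by simp)
        · have h4 : X.hi.2 ≤ k.castSucc := h3.2
          rw [← e2] at h4
          have h5 : k.1 + 1 ≤ k.1 := h4
          omega
      · rcases h3 with h3 | h3
        · have h4 : X.lo.1 = ⟨i.1 + 1, by omega⟩ := (congrArg (fun Y => (lo Y).1) h3).symm
          rw [← e1] at h4
          have h5 : i.1 = i.1 + 1 := congrArg Fin.val h4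
          omega
        · have h4 : (⟨i.1 + 1, by omega⟩ : Fin (m + 1)) ≤ X.lo.1 := h3.1
          rw [← e1] at h4
          have h5 : i.1 + 1 ≤ i.1 := h4
          omega
    obtain ⟨i1, j1, hD1, hi1, hj1⟩ := p1 _ _ rfl
    obtain ⟨i2, j2, hD2, hi2, hj2⟩ := p2 _ _ rfl
    have key : ∀ i j, i ≤ X.hi.1 → X.lo.1 ≤ i → j ≤ X.hi.2 → X.lo.2 ≤ j → (i, j) ∈ D := by
      intro i j ha hb hc hd
      exact mem_of_corners D h1 h2 ⟨i1, j1, hD1, ha.trans hi1, hj1.trans hd⟩
        ⟨i2, j2, hD2, hi2.trans hb, hc.trans hj2⟩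
    cases X with
    | pt i j => exact key i j le_rfl le_rfl le_rfl le_rfl
    | eye i j _ _ =>
      have hi' : i.castSucc ≤ i.succ := Fin.castSucc_lt_succ.le
      have hj' : j.castSucc ≤ j.succ := Fin.castSucc_lt_succ.le
      exact ⟨key _ _ hi' le_rfl hj' le_rfl, key _ _ le_rfl hi' hj' le_rfl,
        key _ _ hi' le_rfl le_rfl hj', key _ _ le_rfl hi' le_rfl hj'⟩

end

/-- **Planar distributive lattices with eyes are representable.** -/
theorem planar {m n : ℕ} {ι : Type} [Finite ι] (x : Fin m → ι) (y : Fin n → ι) (N : ι → ℕ)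
    (hN : ∀ l, IsPrimePow (N l + 1)) (D : Sublattice (Fin (m + 1) × Fin (n + 1)))
    (h1 : ∀ i, ∃ j, (i, j) ∈ D) (h2 : ∀ j, ∃ i, (i, j) ∈ D) :
    Representable {X : Eyes x y N // X.Inside (D : Set (Fin (m + 1) × Fin (n + 1)))} := by
  classical
  have hK : ∀ l, ∃ (K : Type) (_ : Field K) (_ : Finite K), Nonempty (Fin (N l) ≃ Kˣ) := by
    intro l
    obtain ⟨p, k, hp, hk, hpk⟩ := hN l
    haveI : Fact p.Prime := ⟨hp.nat_prime⟩
    refine ⟨GaloisField p k, inferInstance, inferInstance, ?_⟩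
    have hc : Nat.card (GaloisField p k) = N l + 1 := by
      rw [GaloisField.card p k (by omega), hpk]
    haveI : Fintype (GaloisField p k) := Fintype.ofFinite _
    have hu : Nat.card (GaloisField p k)ˣ = N l := by
      rw [Nat.card_eq_fintype_card, Fintype.card_units, ← Nat.card_eq_fintype_card, hc]
      rfl
    exact ⟨(Finite.equivFinOfCardEq hu).symm⟩
  choose K hK1 hK2 hK3 using hK
  have κ : ∀ l, Fin (N l) ≃ (K l)ˣ := fun l => (hK3 l).some
  obtain ⟨A, ⟨e⟩⟩ := rep_cuts κ (cutsOf (x := x) (y := y) (N := N) D)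
  refine ⟨A, ⟨OrderIso.trans ⟨Equiv.subtypeEquivRight (inside_iff D h1 h2), ?_⟩ e⟩⟩
  intro X Y
  exact Iff.rfl

end Eyes

end Vale.Agent.P183.R2.H332
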