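import Mathlib
import Vale.Agent.P183.R2.H332.Eyes4
import Vale.Agent.P183.R2.H332.EyedDefs

/-!
General facts on planar lattices with eyes: cuts, and the labelled case.
-/

set_option linter.all false

namespace Vale.Agent.P183.R2.H332

open Vale.Agent.P183

/-- A closed family of equivalences, and cuts in it. -/
theorem rep_of_classify {Y B : Type} [LE Y] [Finite B] [Nonempty B]
    (anti : ∀ X X' : Y, X ≤ X' → X' ≤ X → X = X') (rel : Y → Setoid B)
    (hle : ∀ X X', rel X ≤ rel X' ↔ X ≤ X') (F0 : Set (B → B))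
    (hF0 : ∀ f ∈ F0, ∀ X z z', rel X z z' → rel X (f z) (f z'))
    (hcl : ∀ ρ : Setoid B, (∀ f ∈ F0, ∀ z z', ρ z z' → ρ (f z) (f z')) → ∃ X, rel X = ρ)
    (C : Set (Y × Y)) : Representable {X : Y // ∀ c ∈ C, X ≤ c.1 ∨ c.2 ≤ X} := by
  classical
  let F : Set (B → B) := {f | ∀ X : Y, (∀ c ∈ C, X ≤ c.1 ∨ c.2 ≤ X) →
    ∀ z z', rel X z z' → rel X (f z) (f z')}
  have hrep : Representable {ρ : Setoid B // ⊥ ≤ ρ ∧ ∀ f ∈ F, ∀ b b', ρ b b' → ρ (f b) (f b')} :=
    representable_of_adm ⊥ F ⟨OrderIso.refl _⟩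
  let g : {X : Y // ∀ c ∈ C, X ≤ c.1 ∨ c.2 ≤ X} →
      {ρ : Setoid B // ⊥ ≤ ρ ∧ ∀ f ∈ F, ∀ b b', ρ b b' → ρ (f b) (f b')} := fun X =>
    ⟨rel X.1, bot_le, fun f hf b b' hb => hf X.1 X.2 b b' hb⟩
  have hg : ∀ X X', g X ≤ g X' ↔ X ≤ X' := fun X X' => hle X.1 X'.1
  have hbij : Function.Bijective g := by
    constructor
    · intro X X' h
      apply Subtype.ext
      exact anti _ _ ((hg X X').1 h.le) ((hg X' X).1 h.ge)
    · rintro ⟨ρ, hρ1, hρ2⟩
      obtain ⟨X, hX⟩ := hcl ρ (fun f hf => hρ2 f (fun X _ => hF0 f hf X))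
      have hXS : ∀ c ∈ C, X ≤ c.1 ∨ c.2 ≤ X := by
        rintro ⟨w, v⟩ hc
        by_cases hw : X ≤ w
        · exact Or.inl hw
        · right
          rw [← hle] at hw
          have hex : ∃ b b' : B, rel X b b' ∧ ¬ rel w b b' := by
            by_contra hcon
            push Not at hcon
            exact hw (fun b b' hb => hcon b b' hb)
          obtain ⟨b, b', hb, hbw⟩ := hex
          show v ≤ X
          rw [← hle, hX]
          intro d d' hd
          have h1 := hρ2 (fun z => if rel w b z then d else d') (by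
            intro Y hY z z' hz
            rcases hY (w, v) hc with h2 | h2
            · have h3 : rel w z z' := (hle Y w).2 h2 hz
              have h4 : rel w b z ↔ rel w b z' :=
                ⟨fun h => Setoid.trans' _ h h3, fun h => Setoid.trans' _ h (Setoid.symm' _ h3)⟩
              by_cases h5 : rel w b z
              · simp only [if_pos h5, if_pos (h4.1 h5)]
                exact Setoid.refl' _ _
              · simp only [if_neg h5, if_neg (fun h => h5 (h4.2 h))]
                exact Setoid.refl' _ _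
            · have h3 : rel Y d d' := (hle v Y).2 h2 hd
              by_cases h5 : rel w b z
              · by_cases h6 : rel w b z'
                · simp only [if_pos h5, if_pos h6]
                  exact Setoid.refl' _ _
                · simp only [if_pos h5, if_neg h6]
                  exact h3
              · by_cases h6 : rel w b z'
                · simp only [if_neg h5, if_pos h6]
                  exact Setoid.symm' _ h3
                · simp only [if_neg h5, if_neg h6]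
                  exact Setoid.refl' _ _) b b' (by rw [← hX]; exact hb)
          simp only [if_pos (Setoid.refl' (rel w) b), if_neg hbw] at h1
          exact h1
      exact ⟨⟨X, hXS⟩, Subtype.ext hX⟩
  obtain ⟨A, ⟨e⟩⟩ := hrep
  exact ⟨A, ⟨(⟨Equiv.ofBijective g hbij, fun {X Y} => hg X Y⟩ :
    {X : Y // ∀ c ∈ C, X ≤ c.1 ∨ c.2 ≤ X} ≃o
    {ρ : Setoid B // ⊥ ≤ ρ ∧ ∀ f ∈ F, ∀ b b', ρ b b' → ρ (f b) (f b')}).trans e⟩⟩

namespace Eyed

variable {m n : ℕ} {P : Fin m → Fin n → ℕ}

theorem lo_le_hi (Y : Eyed m n P) : Y.lo ≤ Y.hi := by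
  cases Y with
  | pt i j => exact le_rfl
  | eye i j _ => exact ⟨Fin.castSucc_lt_succ.le, Fin.castSucc_lt_succ.le⟩

theorem lo_lt_hi_eye (i : Fin m) (j : Fin n) (t : Fin (P i j)) :
    ¬ (eye i j t : Eyed m n P).hi ≤ (eye i j t : Eyed m n P).lo := by
  intro h1
  have h2 : i.1 + 1 ≤ i.1 := h1.1
  omega

theorem anti (X Y : Eyed m n P) (h : X ≤ Y) (h' : Y ≤ X) : X = Y := by
  rcases h with h | h
  · exact h
  rcases h' with h' | h'
  · exact h'.symm
  have hX : X.hi ≤ X.lo := h.trans ((lo_le_hi Y).trans h')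
  have hY : Y.hi ≤ Y.lo := h'.trans ((lo_le_hi X).trans h)
  cases X with
  | eye i j t => exact absurd hX (lo_lt_hi_eye i j t)
  | pt i j =>
    cases Y with
    | eye i j t => exact absurd hY (lo_lt_hi_eye i j t)
    | pt i' j' =>
      have h1 : (i, j) = (i', j') := le_antisymm h h'
      have h2 : i = i' := congrArg Prod.fst h1
      have h3 : j = j' := congrArg Prod.snd h1
      rw [h2, h3]

/-- The cuts which define a sublattice of the grid. -/
def cutsOf (P : Fin m → Fin n → ℕ) (D : Sublattice (Fin (m + 1) × Fin (n + 1))) :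
    Set (Eyed m n P × Eyed m n P) :=
  {c | (∃ (i : Fin m) (j : Fin (n + 1)), (∀ i' j', (i', j') ∈ D → i.succ ≤ i' → j ≤ j') ∧
      c = (pt i.castSucc (Fin.last n), pt 0 j)) ∨
    ∃ (i : Fin (m + 1)) (j : Fin n), (∀ i' j', (i', j') ∈ D → j.succ ≤ j' → i ≤ i') ∧
      c = (pt (Fin.last m) j.castSucc, pt i 0)}

theorem inside_iff (D : Sublattice (Fin (m + 1) × Fin (n + 1)))
    (h1 : ∀ i, ∃ j, (i, j) ∈ D) (h2 : ∀ j, ∃ i, (i, j) ∈ D) (X : Eyed m n P) :
    X.Inside (D : Set (Fin (m + 1) × Fin (n + 1))) ↔ ∀ c ∈ cutsOf P D, X ≤ c.1 ∨ c.2 ≤ X := by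
  classical
  have h00 : ((0 : Fin (m + 1)), (0 : Fin (n + 1))) ∈ D := by
    obtain ⟨a, ha⟩ := h1 0
    obtain ⟨b, hb⟩ := h2 0
    have h := D.infClosed ha hb
    have e : ((0 : Fin (m + 1)), a) ⊓ (b, (0 : Fin (n + 1))) = (0, 0) := by
      apply Prod.ext
      · exact inf_eq_left.2 (Fin.zero_le _)
      · exact inf_eq_right.2 (Fin.zero_le _)
    rw [e] at h
    exact h
  constructor
  · intro hX
    have hX1 : (X.hi.1, X.lo.2) ∈ D := by
      cases X with
      | pt i j => exact hX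
      | eye i j _ => exact hX.2.1
    have hX2 : (X.lo.1, X.hi.2) ∈ D := by
      cases X with
      | pt i j => exact hX
      | eye i j _ => exact hX.2.2.1
    rintro c (⟨i, j, hc, rfl⟩ | ⟨i, j, hc, rfl⟩)
    · by_cases hi : X.hi.1 ≤ i.castSucc
      · left
        exact Or.inr ⟨hi, Fin.le_last _⟩
      · right
        right
        refine ⟨Fin.zero_le _, hc _ _ hX1 ?_⟩
        show i.1 + 1 ≤ X.hi.1.1
        have h3 : ¬ X.hi.1.1 ≤ i.1 := hi
        omega
    · by_cases hi : X.hi.2 ≤ j.castSucc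
      · left
        exact Or.inr ⟨Fin.le_last _, hi⟩
      · right
        right
        refine ⟨hc _ _ hX2 ?_, Fin.zero_le _⟩
        show j.1 + 1 ≤ X.hi.2.1
        have h3 : ¬ X.hi.2.1 ≤ j.1 := hi
        omega
  · intro hX
    have p1 : ∀ i j, (i, j) = (X.hi.1, X.lo.2) → ∃ i1 j1, (i1, j1) ∈ D ∧ i ≤ i1 ∧ j1 ≤ j := by
      intro i j hij
      by_contra hcon
      push Not at hcon
      have hi0 : i ≠ 0 := by
        rintro rfl
        exact absurd (Fin.zero_le j) (hcon 0 0 h00 le_rfl).not_ge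
      obtain ⟨k, rfl⟩ := Fin.exists_succ_eq.2 hi0
      obtain ⟨a, ha⟩ := h1 k.succ
      have hja : j < a := hcon _ _ ha le_rfl
      have hjn : j.1 < n := by
        have := a.2
        have h3 : j.1 < a.1 := hja
        omega
      have hmem := hX (pt k.castSucc (Fin.last n), pt 0 (⟨j.1 + 1, by omega⟩ : Fin (n + 1)))
        (Or.inl ⟨k, ⟨j.1 + 1, by omega⟩, fun i' j' hD hk => hcon i' j' hD hk, rfl⟩)
      have e1 : k.succ = X.hi.1 := congrArg Prod.fst hij
      have e2 : j = X.lo.2 := congrArg Prod.snd hij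
      rcases hmem with h3 | h3
      · rcases h3 with h3 | h3
        · have h4 : X.hi.1 = k.castSucc := by rw [h3]; rfl
          rw [← e1] at h4
          exact absurd (congrArg Fin.val h4) (by simp)
        · have h4 : X.hi.1 ≤ k.castSucc := h3.1
          rw [← e1] at h4
          have h5 : k.1 + 1 ≤ k.1 := h4
          omega
      · rcases h3 with h3 | h3
        · have h4 : X.lo.2 = ⟨j.1 + 1, by omega⟩ := (congrArg (fun Y => (lo Y).2) h3).symm
          rw [← e2] at h4
          have h5 : j.1 = j.1 + 1 := congrArg Fin.val h4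
          omega
        · have h4 : (⟨j.1 + 1, by omega⟩ : Fin (n + 1)) ≤ X.lo.2 := h3.2
          rw [← e2] at h4
          have h5 : j.1 + 1 ≤ j.1 := h4
          omega
    have p2 : ∀ i j, (i, j) = (X.lo.1, X.hi.2) → ∃ i2 j2, (i2, j2) ∈ D ∧ i2 ≤ i ∧ j ≤ j2 := by
      intro i j hij
      by_contra hcon
      push Not at hcon
      have hcon' : ∀ i2 j2, (i2, j2) ∈ D → j ≤ j2 → i < i2 := by
        intro i2 j2 hD hj
        by_contra h
        exact absurd hj (hcon i2 j2 hD (not_lt.1 h)).not_ge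
      have hj0 : j ≠ 0 := by
        rintro rfl
        exact absurd (Fin.zero_le i) (hcon' 0 0 h00 le_rfl).not_ge
      obtain ⟨k, rfl⟩ := Fin.exists_succ_eq.2 hj0
      obtain ⟨a, ha⟩ := h2 k.succ
      have hja : i < a := hcon' _ _ ha le_rfl
      have hjn : i.1 < m := by
        have := a.2
        have h3 : i.1 < a.1 := hja
        omega
      have hmem := hX (pt (Fin.last m) k.castSucc, pt (⟨i.1 + 1, by omega⟩ : Fin (m + 1)) 0)
        (Or.inr ⟨⟨i.1 + 1, by omega⟩, k, fun i' j' hD hk => hcon' i' j' hD hk, rfl⟩)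
      have e1 : i = X.lo.1 := congrArg Prod.fst hij
      have e2 : k.succ = X.hi.2 := congrArg Prod.snd hij
      rcases hmem with h3 | h3
      · rcases h3 with h3 | h3
        · have h4 : X.hi.2 = k.castSucc := by rw [h3]; rfl
          rw [← e2] at h4
          exact absurd (congrArg Fin.val h4) (by simp)
        · have h4 : X.hi.2 ≤ k.castSucc := h3.2
          rw [← e2] at h4
          have h5 : k.1 + 1 ≤ k.1 := h4
          omega
      · rcases h3 with h3 | h3
        · have h4 : X.lo.1 = ⟨i.1 + 1, by omega⟩ := (congrArg (fun Y => (lo Y).1) h3).symm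
          rw [← e1] at h4
          have h5 : i.1 = i.1 + 1 := congrArg Fin.val h4
          omega
        · have h4 : (⟨i.1 + 1, by omega⟩ : Fin (m + 1)) ≤ X.lo.1 := h3.1
          rw [← e1] at h4
          have h5 : i.1 + 1 ≤ i.1 := h4
          omega
    obtain ⟨i1, j1, hD1, hi1, hj1⟩ := p1 _ _ rfl
    obtain ⟨i2, j2, hD2, hi2, hj2⟩ := p2 _ _ rfl
    have key : ∀ i j, i ≤ X.hi.1 → X.lo.1 ≤ i → j ≤ X.hi.2 → X.lo.2 ≤ j → (i, j) ∈ D := by
      intro i j ha hb hc hd
      exact Eyes.mem_of_corners D h1 h2 ⟨i1, j1, hD1, ha.trans hi1, hj1.trans hd⟩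
        ⟨i2, j2, hD2, hi2.trans hb, hc.trans hj2⟩
    cases X with
    | pt i j => exact key i j le_rfl le_rfl le_rfl le_rfl
    | eye i j _ =>
      have hi' : i.castSucc ≤ i.succ := Fin.castSucc_lt_succ.le
      have hj' : j.castSucc ≤ j.succ := Fin.castSucc_lt_succ.le
      exact ⟨key _ _ hi' le_rfl hj' le_rfl, key _ _ le_rfl hi' hj' le_rfl,
        key _ _ hi' le_rfl le_rfl hj', key _ _ le_rfl hi' le_rfl hj'⟩

/-- The labelled case in the notation with numbers of eyes. -/
theorem labelled {m n : ℕ} {ι : Type} [Finite ι] (P : Fin m → Fin n → ℕ) (x : Fin m → ι)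
    (y : Fin n → ι) (N : ι → ℕ) (hN : ∀ l, IsPrimePow (N l + 1))
    (hP1 : ∀ i j, x i = y j → P i j = N (x i)) (hP0 : ∀ i j, x i ≠ y j → P i j = 0)
    (D : Sublattice (Fin (m + 1) × Fin (n + 1)))
    (h1 : ∀ i, ∃ j, (i, j) ∈ D) (h2 : ∀ j, ∃ i, (i, j) ∈ D) :
    Representable {X : Eyed m n P // X.Inside (D : Set (Fin (m + 1) × Fin (n + 1)))} := by
  classical
  have hxy : ∀ i j, Fin (P i j) → x i = y j := by
    intro i j t
    by_contra h
    rw [hP0 i j h] at t
    exact t.elim0
  let φ : Eyed m n P → Eyes x y N := fun X => match X with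
    | pt i j => Eyes.pt i j
    | eye i j t => Eyes.eye i j (hxy i j t) (Fin.cast (hP1 i j (hxy i j t)) t)
  have hlo : ∀ X, (φ X).lo = X.lo := by
    rintro (⟨i, j⟩ | ⟨i, j, t⟩) <;> rfl
  have hhi : ∀ X, (φ X).hi = X.hi := by
    rintro (⟨i, j⟩ | ⟨i, j, t⟩) <;> rfl
  have hinj : Function.Injective φ := by
    rintro (⟨i, j⟩ | ⟨i, j, t⟩) (⟨i', j'⟩ | ⟨i', j', t'⟩) h
    · injection h with e1 e2
      rw [e1, e2]
    · cases h
    · cases h
    · injection h with e1 e2 e3
      subst e1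
      subst e2
      have e4 := eq_of_heq e3
      have e5 : t = t' := by
        apply Fin.ext
        have := congrArg Fin.val e4
        simpa using this
      rw [e5]
  have hsurj : Function.Surjective φ := by
    rintro (⟨i, j⟩ | ⟨i, j, h, t⟩)
    · exact ⟨pt i j, rfl⟩
    · exact ⟨eye i j (Fin.cast (hP1 i j h).symm t), rfl⟩
  have hle : ∀ X Y, φ X ≤ φ Y ↔ X ≤ Y := by
    intro X Y
    constructor
    · rintro (h | h)
      · exact Or.inl (hinj h)
      · right
        rw [hhi, hlo] at h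
        exact h
    · rintro (h | h)
      · exact Or.inl (by rw [h])
      · right
        rw [hhi, hlo]
        exact h
  have hins : ∀ X, X.Inside (D : Set (Fin (m + 1) × Fin (n + 1))) ↔
      (φ X).Inside (D : Set (Fin (m + 1) × Fin (n + 1))) := by
    rintro (⟨i, j⟩ | ⟨i, j, t⟩) <;> exact Iff.rfl
  obtain ⟨A, ⟨e⟩⟩ := Eyes.planar x y N hN D h1 h2
  refine ⟨A, ⟨OrderIso.trans
    ⟨(Equiv.ofBijective φ ⟨hinj, hsurj⟩).subtypeEquiv hins, ?_⟩ e⟩⟩
  intro X Y
  exact hle X.1 Y.1

end Eyed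

end Vale.Agent.P183.R2.H332
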