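import Mathlib
import Vale.Agent.P183.R2.H332.Eyed1

/-!
Planar lattices whose eyes come from a tree.
-/

set_option linter.all false

namespace Vale.Agent.P183.R2.H332

open Vale.Agent.P183

namespace Eyed

section

variable {m n : ℕ} {V : Type} (T : EdgeTree m n V)

open Sum

theorem bool_cases {a b c : Bool} (h : b ≠ c) : (a = b ∧ a ≠ c) ∨ (a = c ∧ a ≠ b) := by
  revert h
  cases a <;> cases b <;> cases c <;> simp

/-- Walking along edges. -/
theorem walk [Finite V] (ρ : Setoid V) (F : Set (Fin m ⊕ Fin n))
    (hF : ∀ e ∈ F, ρ (T.p e) (T.q e)) : ∀ (s : ℕ) (x y : V),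
    (∀ e, e ∉ F → T.side x e = T.side y e) →
      ({e | T.side x e ≠ T.side y e} : Set (Fin m ⊕ Fin n)).ncard = s → ρ x y := by
  classical
  intro s
  induction s using Nat.strong_induction_on with
  | _ s ih =>
    intro x y hxy hs
    by_cases h0 : ∃ e, T.side x e ≠ T.side y e
    · obtain ⟨e, he⟩ := h0
      have heF : e ∈ F := by
        by_contra h
        exact he (hxy e h)
      -- one of the two orientations
      have main : ∀ x y : V, (∀ e, e ∉ F → T.side x e = T.side y e) →
          ({e | T.side x e ≠ T.side y e} : Set (Fin m ⊕ Fin n)).ncard = s →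
          T.side x e ≠ T.side y e → T.side x e = T.side (T.p e) e → ρ x y := by
        intro x y hxy hs he hx
        have hy : T.side y e = T.side (T.q e) e := by
          rcases bool_cases (a := T.side y e) (T.ends e).1 with h | h
          · exact absurd (hx.trans h.1.symm) he
          · exact h.1
        have hsub1 : ({f | T.side x f ≠ T.side (T.p e) f} : Set (Fin m ⊕ Fin n)) ⊂
            {f | T.side x f ≠ T.side y f} := by
          refine ⟨?_, ?_⟩
          · intro f hf hfy
            by_cases hfe : f = e
            · rw [hfe] at hf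
              exact hf hx
            · exact hf (T.compat e f (fun h => hfe h.symm) x y he hfy)
          · intro h
            have := h (show e ∈ {f | T.side x f ≠ T.side y f} from he)
            exact this hx
        have hsub2 : ({f | T.side (T.q e) f ≠ T.side y f} : Set (Fin m ⊕ Fin n)) ⊂
            {f | T.side x f ≠ T.side y f} := by
          refine ⟨?_, ?_⟩
          · intro f hf hfy
            by_cases hfe : f = e
            · rw [hfe] at hf
              exact hf hy.symm
            · apply hf
              rw [← (T.ends e).2 f hfe, ← T.compat e f (fun h => hfe h.symm) x y he hfy]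
              exact hfy
          · intro h
            have := h (show e ∈ {f | T.side x f ≠ T.side y f} from he)
            exact this hy.symm
        have c1 := Set.ncard_lt_ncard hsub1
        have c2 := Set.ncard_lt_ncard hsub2
        rw [hs] at c1 c2
        have r1 : ρ x (T.p e) := by
          refine ih _ c1 x (T.p e) ?_ rfl
          intro f hf
          by_contra h
          exact hsub1.1 h (hxy f hf)
        have r2 : ρ (T.q e) y := by
          refine ih _ c2 (T.q e) y ?_ rfl
          intro f hf
          by_contra h
          exact hsub2.1 h (hxy f hf)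
        exact Setoid.trans' ρ r1 (Setoid.trans' ρ (hF e heF) r2)
      rcases bool_cases (a := T.side x e) (T.ends e).1 with h | h
      · exact main x y hxy hs he h.1
      · apply Setoid.symm' ρ
        refine main y x (fun f hf => (hxy f hf).symm) ?_ he.symm ?_
        · rw [← hs]
          congr 1
          ext f
          exact ⟨fun h => h.symm, fun h => h.symm⟩
        · rcases bool_cases (a := T.side y e) (T.ends e).1 with h' | h'
          · exact h'.1
          · exact absurd (h.1.trans h'.1.symm) he
    · push Not at h0
      rw [T.sep x y (funext h0)]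

theorem walk' [Finite V] (ρ : Setoid V) (F : Set (Fin m ⊕ Fin n))
    (hF : ∀ e ∈ F, ρ (T.p e) (T.q e)) (x y : V)
    (hxy : ∀ e, e ∉ F → T.side x e = T.side y e) : ρ x y :=
  walk T ρ F hF _ x y hxy rfl

/-- If two vertices differ at `e` and outside a set of related edges only there, then the ends of
`e` are related. -/
theorem across [Finite V] (ρ : Setoid V) (F : Set (Fin m ⊕ Fin n))
    (hF : ∀ e ∈ F, ρ (T.p e) (T.q e)) (e : Fin m ⊕ Fin n) (x y : V) (h : ρ x y)
    (he : T.side x e ≠ T.side y e) (hxy : ∀ f, f ∉ F → f ≠ e → T.side x f = T.side y f) :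
    ρ (T.p e) (T.q e) := by
  classical
  have main : ∀ x y : V, ρ x y → T.side x e ≠ T.side y e →
      (∀ f, f ∉ F → f ≠ e → T.side x f = T.side y f) → T.side x e = T.side (T.p e) e →
      ρ (T.p e) (T.q e) := by
    intro x y h he hxy hx
    have hy : T.side y e = T.side (T.q e) e := by
      rcases bool_cases (a := T.side y e) (T.ends e).1 with h | h
      · exact absurd (hx.trans h.1.symm) he
      · exact h.1
    have r1 : ρ x (T.p e) := by
      refine walk' T ρ F hF _ _ ?_
      intro f hf
      by_cases hfe : f = e
      · rw [hfe]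
        exact hx
      · exact T.compat e f (fun h => hfe h.symm) x y he (hxy f hf hfe)
    have r2 : ρ y (T.q e) := by
      refine walk' T ρ F hF _ _ ?_
      intro f hf
      by_cases hfe : f = e
      · rw [hfe]
        exact hy
      · rw [← hxy f hf hfe, T.compat e f (fun h => hfe h.symm) x y he (hxy f hf hfe)]
        exact (T.ends e).2 f hfe
    exact Setoid.trans' ρ (Setoid.symm' ρ r1) (Setoid.trans' ρ h r2)
  rcases bool_cases (a := T.side x e) (T.ends e).1 with h1 | h1
  · exact main x y h he hxy h1.1
  · refine main y x (Setoid.symm' ρ h) he.symm (fun f hf hfe => (hxy f hf hfe).symm) ?_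
    rcases bool_cases (a := T.side y e) (T.ends e).1 with h' | h'
    · exact h'.1
    · exact absurd (h1.1.trans h'.1.symm) he

/-- Agreement of the rows from `i` on. -/
def At1 (i : ℕ) (z z' : V) : Prop :=
  ∀ k : Fin m, i ≤ k.1 → T.side z (inl k) = T.side z' (inl k)

/-- Agreement of the columns from `j` on. -/
def At2 (j : ℕ) (z z' : V) : Prop :=
  ∀ k : Fin n, j ≤ k.1 → T.side z (inr k) = T.side z' (inr k)

variable {T}

theorem At1.symm {i : ℕ} {z z' : V} (h : At1 T i z z') : At1 T i z' z :=
  fun k hk => (h k hk).symm

theorem At2.symm {i : ℕ} {z z' : V} (h : At2 T i z z') : At2 T i z' z :=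
  fun k hk => (h k hk).symm

theorem At1.trans {i : ℕ} {z z' z'' : V} (h : At1 T i z z') (h' : At1 T i z' z'') :
    At1 T i z z'' := fun k hk => (h k hk).trans (h' k hk)

theorem At2.trans {i : ℕ} {z z' z'' : V} (h : At2 T i z z') (h' : At2 T i z' z'') :
    At2 T i z z'' := fun k hk => (h k hk).trans (h' k hk)

theorem At1.mono {i j : ℕ} (hij : i ≤ j) {z z' : V} (h : At1 T i z z') :
    At1 T j z z' := fun k hk => h k (hij.trans hk)

theorem At2.mono {i j : ℕ} (hij : i ≤ j) {z z' : V} (h : At2 T i z z') :
    At2 T j z z' := fun k hk => h k (hij.trans hk)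

variable (T)

/-- The equivalence relation of an element. -/
def trel {P : Fin m → Fin n → ℕ} : Eyed m n P → Setoid V
  | pt i j =>
    { r := fun z z' => At1 T i.1 z z' ∧ At2 T j.1 z z'
      iseqv :=
        { refl := fun z => ⟨fun _ _ => rfl, fun _ _ => rfl⟩
          symm := fun h => ⟨h.1.symm, h.2.symm⟩
          trans := fun h h' => ⟨h.1.trans h'.1, h.2.trans h'.2⟩ } }
  | eye i j _ =>
    { r := fun z z' => At1 T (i.1 + 1) z z' ∧ At2 T (j.1 + 1) z z' ∧
        xor (T.side z (inl i)) (T.side z (inr j)) = xor (T.side z' (inl i)) (T.side z' (inr j))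
      iseqv :=
        { refl := fun z => ⟨fun _ _ => rfl, fun _ _ => rfl, rfl⟩
          symm := fun h => ⟨h.1.symm, h.2.1.symm, h.2.2.symm⟩
          trans := fun h h' => ⟨h.1.trans h'.1, h.2.1.trans h'.2.1, h.2.2.trans h'.2.2⟩ } }

variable {P : Fin m → Fin n → ℕ}

theorem trel_lo (Y : Eyed m n P) {z z' : V} (h1 : At1 T Y.lo.1.1 z z')
    (h2 : At2 T Y.lo.2.1 z z') : trel T Y z z' := by
  cases Y with
  | pt i j => exact ⟨h1, h2⟩
  | eye i j t =>
    have h1' : At1 T i.1 z z' := h1
    have h2' : At2 T j.1 z z' := h2
    refine ⟨h1'.mono (by omega), h2'.mono (by omega), ?_⟩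
    rw [h1' i le_rfl, h2' j le_rfl]

theorem trel_hi (Y : Eyed m n P) {z z' : V} (h : trel T Y z z') :
    At1 T Y.hi.1.1 z z' ∧ At2 T Y.hi.2.1 z z' := by
  cases Y with
  | pt i j => exact h
  | eye i j t => exact ⟨h.1, h.2.1⟩

/-- The ends of an edge are related exactly above it. -/
theorem row_edge (k : Fin m) (Y : Eyed m n P) :
    trel T Y (T.p (inl k)) (T.q (inl k)) ↔ k.1 + 1 ≤ Y.lo.1.1 := by
  have hne := (T.ends (inl k)).1
  have heq : ∀ f, f ≠ inl k → T.side (T.p (inl k)) f = T.side (T.q (inl k)) f :=
    (T.ends (inl k)).2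
  constructor
  · intro h
    cases Y with
    | pt i j =>
      show k.1 + 1 ≤ i.1
      by_contra hk
      exact hne (h.1 k (by omega))
    | eye i j t =>
      show k.1 + 1 ≤ i.1
      by_contra hk
      by_cases hki : k = i
      · subst hki
        have h3 := h.2.2
        rw [heq (inr j) (by simp)] at h3
        revert h3 hne
        cases T.side (T.p (inl k)) (inl k) <;> cases T.side (T.q (inl k)) (inl k) <;>
          cases T.side (T.q (inl k)) (inr j) <;> simp
      · exact hne (h.1 k (by
          have : k.1 ≠ i.1 := fun h => hki (Fin.ext h)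
          omega))
  · intro h
    refine trel_lo T Y ?_ ?_
    · intro r hr
      refine heq (inl r) ?_
      intro hh
      have := congrArg Fin.val (Sum.inl.inj hh)
      omega
    · intro r _
      exact heq (inr r) (by simp)

theorem col_edge (k : Fin n) (Y : Eyed m n P) :
    trel T Y (T.p (inr k)) (T.q (inr k)) ↔ k.1 + 1 ≤ Y.lo.2.1 := by
  have hne := (T.ends (inr k)).1
  have heq : ∀ f, f ≠ inr k → T.side (T.p (inr k)) f = T.side (T.q (inr k)) f :=
    (T.ends (inr k)).2
  constructor
  · intro h
    cases Y with
    | pt i j =>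
      show k.1 + 1 ≤ j.1
      by_contra hk
      exact hne (h.2 k (by omega))
    | eye i j t =>
      show k.1 + 1 ≤ j.1
      by_contra hk
      by_cases hki : k = j
      · subst hki
        have h3 := h.2.2
        rw [heq (inl i) (by simp)] at h3
        revert h3 hne
        cases T.side (T.p (inr k)) (inr k) <;> cases T.side (T.q (inr k)) (inr k) <;>
          cases T.side (T.q (inr k)) (inl i) <;> simp
      · exact hne (h.2.1 k (by
          have : k.1 ≠ j.1 := fun h => hki (Fin.ext h)
          omega))
  · intro h
    refine trel_lo T Y ?_ ?_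
    · intro r _
      exact heq (inl r) (by simp)
    · intro r hr
      refine heq (inr r) ?_
      intro hh
      have := congrArg Fin.val (Sum.inr.inj hh)
      omega

/-- Two vertices on the far ends of two linked edges. -/
theorem far (i : Fin m) (j : Fin n) (h : T.Link i j) : ∃ x y : V, At1 T (i.1 + 1) x y ∧
    At2 T (j.1 + 1) x y ∧ T.side x (inl i) ≠ T.side y (inl i) ∧
      T.side x (inr j) ≠ T.side y (inr j) := by
  have e1 := T.ends (inl i)
  have e2 := T.ends (inr j)
  -- an end of the row which is not on the side of the column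
  obtain ⟨x, hx1, hx2⟩ : ∃ x, T.side x (inl i) ≠ T.side (T.p (inr j)) (inl i) ∧
      ∀ f, f ≠ inl i → T.side x f = T.side (T.p (inl i)) f := by
    by_cases h1 : T.side (T.p (inl i)) (inl i) = T.side (T.p (inr j)) (inl i)
    · refine ⟨T.q (inl i), ?_, fun f hf => (e1.2 f hf).symm⟩
      rw [← h1]
      exact e1.1.symm
    · exact ⟨T.p (inl i), h1, fun f _ => rfl⟩
  obtain ⟨y, hy1, hy2⟩ : ∃ y, T.side y (inr j) ≠ T.side (T.p (inl i)) (inr j) ∧
      ∀ f, f ≠ inr j → T.side y f = T.side (T.p (inr j)) f := by
    by_cases h1 : T.side (T.p (inr j)) (inr j) = T.side (T.p (inl i)) (inr j)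
    · refine ⟨T.q (inr j), ?_, fun f hf => (e2.2 f hf).symm⟩
      rw [← h1]
      exact e2.1.symm
    · exact ⟨T.p (inr j), h1, fun f _ => rfl⟩
  refine ⟨x, y, ?_, ?_, ?_, ?_⟩
  · intro k hk
    have hki : (inl k : Fin m ⊕ Fin n) ≠ inl i := by
      intro hh
      have := congrArg Fin.val (Sum.inl.inj hh)
      omega
    rw [hx2 _ hki, hy2 _ (by simp)]
    exact h.1 k (by show i.1 < k.1; omega)
  · intro k hk
    have hkj : (inr k : Fin m ⊕ Fin n) ≠ inr j := by
      intro hh
      have := congrArg Fin.val (Sum.inr.inj hh)
      omega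
    rw [hx2 _ (by simp), hy2 _ hkj]
    exact h.2 k (by show j.1 < k.1; omega)
  · rw [hy2 (inl i) (by simp)]
    exact hx1
  · rw [hx2 (inr j) (by simp)]
    exact hy1.symm

theorem trel_le_iff (hP : ∀ i j, P i j ≤ 1) (hP0 : ∀ i j, ¬ T.Link i j → P i j = 0)
    (X Y : Eyed m n P) : trel T X ≤ trel T Y ↔ X ≤ Y := by
  classical
  constructor
  · intro h
    have hlo : X.lo ≤ Y.lo := by
      constructor
      · show X.lo.1.1 ≤ Y.lo.1.1
        rcases Nat.eq_zero_or_pos X.lo.1.1 with h0 | h0
        · rw [h0]
          exact Nat.zero_le _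
        · obtain ⟨k, hk⟩ : ∃ k, X.lo.1.1 = k + 1 := ⟨X.lo.1.1 - 1, by omega⟩
          have h1 : k < m := by
            have := X.lo.1.2
            omega
          have h2 := (row_edge T (⟨k, h1⟩ : Fin m) Y).1
            (h ((row_edge T (⟨k, h1⟩ : Fin m) X).2 (show k + 1 ≤ X.lo.1.1 by omega)))
          have h3 : k + 1 ≤ Y.lo.1.1 := h2
          omega
      · show X.lo.2.1 ≤ Y.lo.2.1
        rcases Nat.eq_zero_or_pos X.lo.2.1 with h0 | h0
        · rw [h0]
          exact Nat.zero_le _
        · obtain ⟨k, hk⟩ : ∃ k, X.lo.2.1 = k + 1 := ⟨X.lo.2.1 - 1, by omega⟩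
          have h1 : k < n := by
            have := X.lo.2.2
            omega
          have h2 := (col_edge T (⟨k, h1⟩ : Fin n) Y).1
            (h ((col_edge T (⟨k, h1⟩ : Fin n) X).2 (show k + 1 ≤ X.lo.2.1 by omega)))
          have h3 : k + 1 ≤ Y.lo.2.1 := h2
          omega
    cases X with
    | pt i j => exact Or.inr hlo
    | eye i j t =>
      have hl1 : i.1 ≤ Y.lo.1.1 := hlo.1
      have hl2 : j.1 ≤ Y.lo.2.1 := hlo.2
      have hlink : T.Link i j := by
        by_contra hn
        have ht := t.2
        have ht0 := hP0 i j hn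
        omega
      obtain ⟨x, y, hx1, hx2, hx3, hx4⟩ := far T i j hlink
      have hX : trel T (eye i j t : Eyed m n P) x y := by
        refine ⟨hx1, hx2, ?_⟩
        revert hx3 hx4
        cases T.side x (inl i) <;> cases T.side y (inl i) <;> cases T.side x (inr j) <;>
          cases T.side y (inr j) <;> simp
      have hY := h hX
      cases Y with
      | pt i' j' =>
        right
        have hi2 : i.1 < i'.1 := by
          by_contra hcon
          exact hx3 (hY.1 i (by omega))
        have hj2 : j.1 < j'.1 := by
          by_contra hcon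
          exact hx4 (hY.2 j (by omega))
        exact ⟨hi2, hj2⟩
      | eye i' j' t' =>
        have hi1 : i.1 ≤ i'.1 := hl1
        have hj1 : j.1 ≤ j'.1 := hl2
        obtain ⟨h2, h3, h4⟩ := hY
        by_cases hi2 : i = i'
        · subst hi2
          by_cases hj2 : j = j'
          · subst hj2
            left
            have : t = t' := by
              apply Fin.ext
              have a1 := t.2
              have a2 := t'.2
              have a3 := hP i j
              omega
            rw [this]
          · exfalso
            have h5 : T.side x (inr j') = T.side y (inr j') := hx2 j' (by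
              have : j.1 ≠ j'.1 := fun h => hj2 (Fin.ext h)
              omega)
            rw [h5] at h4
            revert hx3 h4
            cases T.side x (inl i) <;> cases T.side y (inl i) <;>
              cases T.side y (inr j') <;> simp
        · have h5 : T.side x (inl i') = T.side y (inl i') := hx1 i' (by
            have : i.1 ≠ i'.1 := fun h => hi2 (Fin.ext h)
            omega)
          by_cases hj2 : j = j'
          · exfalso
            subst hj2
            rw [h5] at h4
            revert hx4 h4
            cases T.side x (inr j) <;> cases T.side y (inr j) <;>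
              cases T.side y (inl i') <;> simp
          · right
            constructor
            · show i.1 + 1 ≤ i'.1
              have : i.1 ≠ i'.1 := fun h => hi2 (Fin.ext h)
              omega
            · show j.1 + 1 ≤ j'.1
              have : j.1 ≠ j'.1 := fun h => hj2 (Fin.ext h)
              omega
  · rintro (rfl | h)
    · exact le_rfl
    · intro z z' hz
      obtain ⟨h1, h2⟩ := trel_hi T X hz
      exact trel_lo T Y (h1.mono h.1) (h2.mono h.2)

/-- The maps of the algebra. -/
noncomputable def fold (e k : Fin m ⊕ Fin n) (x : V) : V := by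
  classical
  exact if T.side x e = T.side (T.p e) e then T.p k else T.q k

/-- The set of all maps which are used. -/
def maps : Set (V → V) :=
  {f | (∃ i k : Fin m, k < i ∧ f = fold T (inl i) (inl k)) ∨
    ∃ j l : Fin n, l < j ∧ f = fold T (inr j) (inr l)}

theorem fold_rel (e k : Fin m ⊕ Fin n) (ρ : Setoid V) (x y : V)
    (h : T.side x e ≠ T.side y e → ρ (T.p k) (T.q k)) : ρ (fold T e k x) (fold T e k y) := by
  classical
  unfold fold
  by_cases h1 : T.side x e = T.side (T.p e) e
  · by_cases h2 : T.side y e = T.side (T.p e) e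
    · rw [if_pos h1, if_pos h2]
    · rw [if_pos h1, if_neg h2]
      exact h (by rw [h1]; exact fun h => h2 h.symm)
  · by_cases h2 : T.side y e = T.side (T.p e) e
    · rw [if_neg h1, if_pos h2]
      exact Setoid.symm' _ (h (by rw [h2]; exact h1))
    · rw [if_neg h1, if_neg h2]

theorem rel_fold (e k : Fin m ⊕ Fin n) (ρ : Setoid V) (x y : V)
    (hne : T.side x e ≠ T.side y e) (h : ρ (fold T e k x) (fold T e k y)) :
    ρ (T.p k) (T.q k) := by
  classical
  unfold fold at h
  by_cases h1 : T.side x e = T.side (T.p e) e
  · have h2 : ¬ T.side y e = T.side (T.p e) e := fun h2 => hne (h1.trans h2.symm)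
    rw [if_pos h1, if_neg h2] at h
    exact h
  · have h2 : T.side y e = T.side (T.p e) e := by
      rcases bool_cases (a := T.side y e) (fun hh => h1 hh.symm :
        T.side (T.p e) e ≠ T.side x e) with h3 | h3
      · exact h3.1
      · exact absurd h3.1.symm hne
    rw [if_neg h1, if_pos h2] at h
    exact Setoid.symm' _ h

theorem maps_rel (f : V → V) (hf : f ∈ maps T) (X : Eyed m n P) (z z' : V)
    (hz : trel T X z z') : trel T X (f z) (f z') := by
  rcases hf with ⟨i, k, hki, rfl⟩ | ⟨i, k, hki, rfl⟩
  · apply fold_rel
    intro hne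
    rw [row_edge]
    have hki' : k.1 < i.1 := hki
    cases X with
    | pt a b =>
      show k.1 + 1 ≤ a.1
      by_contra hcon
      exact hne (hz.1 i (by omega))
    | eye a b t =>
      show k.1 + 1 ≤ a.1
      by_contra hcon
      exact hne (hz.1 i (by omega))
  · apply fold_rel
    intro hne
    rw [col_edge]
    have hki' : k.1 < i.1 := hki
    cases X with
    | pt a b =>
      show k.1 + 1 ≤ b.1
      by_contra hcon
      exact hne (hz.2 i (by omega))
    | eye a b t =>
      show k.1 + 1 ≤ b.1
      by_contra hcon
      exact hne (hz.2.1 i (by omega))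

/-- The largest edge which is crossed. -/
theorem exists_top {N : ℕ} (Q : Fin N → Prop) : ∃ i : ℕ, i ≤ N ∧ (∀ k : Fin N, i ≤ k.1 → ¬ Q k) ∧
    ∀ k : Fin N, k.1 + 1 = i → Q k := by
  classical
  have h : ∃ i : ℕ, ∀ k : Fin N, i ≤ k.1 → ¬ Q k := ⟨N, fun k hk => absurd k.2 (by omega)⟩
  refine ⟨Nat.find h, Nat.find_min' h (fun k hk => absurd k.2 (by omega)), Nat.find_spec h, ?_⟩
  intro k hk
  by_contra hQ
  apply Nat.find_min h (show k.1 < Nat.find h by omega)
  intro r hr
  rcases hr.lt_or_eq with h1 | h1
  · exact Nat.find_spec h r (by omega)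
  · have : k = r := Fin.ext h1
    rw [← this]
    exact hQ

theorem tclassify [Finite V] (hP1 : ∀ i j, T.Link i j → P i j = 1) (ρ : Setoid V)
    (hρ : ∀ f ∈ maps T, ∀ z z', ρ z z' → ρ (f z) (f z')) : ∃ X : Eyed m n P, trel T X = ρ := by
  classical
  -- crossed rows and columns
  obtain ⟨I, hIm, hI1, hI2⟩ := exists_top
    (fun k : Fin m => ∃ x y, ρ x y ∧ T.side x (inl k) ≠ T.side y (inl k))
  obtain ⟨J, hJn, hJ1, hJ2⟩ := exists_top
    (fun k : Fin n => ∃ x y, ρ x y ∧ T.side x (inr k) ≠ T.side y (inr k))
  have up1 : ∀ x y, ρ x y → At1 T I x y := by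
    intro x y h k hk
    by_contra hne
    exact hI1 k hk ⟨x, y, h, hne⟩
  have up2 : ∀ x y, ρ x y → At2 T J x y := by
    intro x y h k hk
    by_contra hne
    exact hJ1 k hk ⟨x, y, h, hne⟩
  have row : ∀ k : Fin m, k.1 + 1 < I → ρ (T.p (inl k)) (T.q (inl k)) := by
    intro k hk
    obtain ⟨x, y, h, hne⟩ := hI2 (⟨I - 1, by omega⟩ : Fin m) (by show I - 1 + 1 = I; omega)
    exact rel_fold T (inl ⟨I - 1, by omega⟩) (inl k) ρ x y hne (hρ _
      (Or.inl ⟨⟨I - 1, by omega⟩, k, by show k.1 < I - 1; omega, rfl⟩) x y h)
  have col : ∀ k : Fin n, k.1 + 1 < J → ρ (T.p (inr k)) (T.q (inr k)) := by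
    intro k hk
    obtain ⟨x, y, h, hne⟩ := hJ2 (⟨J - 1, by omega⟩ : Fin n) (by show J - 1 + 1 = J; omega)
    exact rel_fold T (inr ⟨J - 1, by omega⟩) (inr k) ρ x y hne (hρ _
      (Or.inr ⟨⟨J - 1, by omega⟩, k, by show k.1 < J - 1; omega, rfl⟩) x y h)
  by_cases hfull : (∀ k : Fin m, k.1 + 1 = I → ρ (T.p (inl k)) (T.q (inl k))) ∧
      ∀ k : Fin n, k.1 + 1 = J → ρ (T.p (inr k)) (T.q (inr k))
  · refine ⟨pt ⟨I, by omega⟩ ⟨J, by omega⟩, ?_⟩
    apply Setoid.ext
    intro x y
    constructor
    · intro h
      refine walk' T ρ {e | (∃ k : Fin m, e = inl k ∧ k.1 < I) ∨ ∃ k : Fin n, e = inr k ∧ k.1 < J}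
        ?_ x y ?_
      · rintro e (⟨k, rfl, hk⟩ | ⟨k, rfl, hk⟩)
        · by_cases hk' : k.1 + 1 < I
          · exact row k hk'
          · exact hfull.1 k (by omega)
        · by_cases hk' : k.1 + 1 < J
          · exact col k hk'
          · exact hfull.2 k (by omega)
      · intro e he
        rcases e with k | k
        · refine h.1 k ?_
          by_contra hk
          have hk' : ¬ I ≤ k.1 := hk
          exact he (Or.inl ⟨k, rfl, by omega⟩)
        · refine h.2 k ?_
          by_contra hk
          have hk' : ¬ J ≤ k.1 := hk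
          exact he (Or.inr ⟨k, rfl, by omega⟩)
    · intro h
      exact ⟨up1 x y h, up2 x y h⟩
  · -- the small edges
    let F : Set (Fin m ⊕ Fin n) :=
      {e | (∃ k : Fin m, e = inl k ∧ k.1 + 1 < I) ∨ ∃ k : Fin n, e = inr k ∧ k.1 + 1 < J}
    have hF : ∀ e ∈ F, ρ (T.p e) (T.q e) := by
      rintro e (⟨k, rfl, hk⟩ | ⟨k, rfl, hk⟩)
      · exact row k hk
      · exact col k hk
    -- a row which is crossed alone is contained
    have rowalone : ∀ i : Fin m, i.1 + 1 = I → ∀ x y, ρ x y → T.side x (inl i) ≠ T.side y (inl i) →
        (∀ j : Fin n, j.1 + 1 = J → T.side x (inr j) = T.side y (inr j) ∨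
          ρ (T.p (inr j)) (T.q (inr j))) → ρ (T.p (inl i)) (T.q (inl i)) := by
      intro i hi x y h hne hj
      refine across T ρ (F ∪ {e | ρ (T.p e) (T.q e)}) ?_ (inl i) x y h hne ?_
      · rintro e (he | he)
        · exact hF e he
        · exact he
      · intro f hf hfe
        rcases f with k | k
        · refine up1 x y h k ?_
          by_contra hk
          have hk' : ¬ I ≤ k.1 := hk
          have hki : k.1 ≠ i.1 := fun hh => hfe (congrArg inl (Fin.ext hh))
          exact hf (Or.inl (Or.inl ⟨k, rfl, by omega⟩))
        · by_cases hk : J ≤ k.1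
          · exact up2 x y h k hk
          · by_cases hk' : k.1 + 1 = J
            · rcases hj k hk' with h1 | h1
              · exact h1
              · exact absurd (Or.inr h1) hf
            · exact absurd (Or.inl (Or.inr ⟨k, rfl, by omega⟩)) hf
    have colalone : ∀ j : Fin n, j.1 + 1 = J → ∀ x y, ρ x y → T.side x (inr j) ≠ T.side y (inr j) →
        (∀ i : Fin m, i.1 + 1 = I → T.side x (inl i) = T.side y (inl i) ∨
          ρ (T.p (inl i)) (T.q (inl i))) → ρ (T.p (inr j)) (T.q (inr j)) := by
      intro j hj x y h hne hi
      refine across T ρ (F ∪ {e | ρ (T.p e) (T.q e)}) ?_ (inr j) x y h hne ?_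
      · rintro e (he | he)
        · exact hF e he
        · exact he
      · intro f hf hfe
        rcases f with k | k
        · by_cases hk : I ≤ k.1
          · exact up1 x y h k hk
          · by_cases hk' : k.1 + 1 = I
            · rcases hi k hk' with h1 | h1
              · exact h1
              · exact absurd (Or.inr h1) hf
            · exact absurd (Or.inl (Or.inl ⟨k, rfl, by omega⟩)) hf
        · refine up2 x y h k ?_
          by_contra hk
          have hk' : ¬ J ≤ k.1 := hk
          have hki : k.1 ≠ j.1 := fun hh => hfe (congrArg inr (Fin.ext hh))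
          exact hf (Or.inl (Or.inr ⟨k, rfl, by omega⟩))
    -- both top edges exist and neither is contained
    have hIpos : 0 < I := by
      by_contra hI0
      apply hfull
      refine ⟨fun k hk => by omega, fun k hk => ?_⟩
      obtain ⟨x, y, h, hne⟩ := hJ2 k hk
      exact colalone k hk x y h hne (fun i hi => by omega)
    have hJpos : 0 < J := by
      by_contra hJ0
      apply hfull
      refine ⟨fun k hk => ?_, fun k hk => by omega⟩
      obtain ⟨x, y, h, hne⟩ := hI2 k hk
      exact rowalone k hk x y h hne (fun j hj => by omega)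
    obtain ⟨i, hi⟩ : ∃ i : Fin m, i.1 + 1 = I := ⟨⟨I - 1, by omega⟩, by show I - 1 + 1 = I; omega⟩
    obtain ⟨j, hj⟩ : ∃ j : Fin n, j.1 + 1 = J := ⟨⟨J - 1, by omega⟩, by show J - 1 + 1 = J; omega⟩
    have hnr : ¬ ρ (T.p (inl i)) (T.q (inl i)) := by
      intro hr
      apply hfull
      refine ⟨fun k hk => ?_, fun k hk => ?_⟩
      · have : k = i := Fin.ext (by omega)
        rw [this]
        exact hr
      · obtain ⟨x, y, h, hne⟩ := hJ2 k hk
        refine colalone k hk x y h hne (fun i' hi' => Or.inr ?_)
        have : i' = i := Fin.ext (by omega)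
        rw [this]
        exact hr
    have hnc : ¬ ρ (T.p (inr j)) (T.q (inr j)) := by
      intro hr
      apply hnr
      obtain ⟨x, y, h, hne⟩ := hI2 i hi
      refine rowalone i hi x y h hne (fun j' hj' => Or.inr ?_)
      have : j' = j := Fin.ext (by omega)
      rw [this]
      exact hr
    have both : ∀ x y, ρ x y → (T.side x (inl i) = T.side y (inl i) ↔
        T.side x (inr j) = T.side y (inr j)) := by
      intro x y h
      constructor
      · intro h1
        by_contra h2
        refine hnc (colalone j hj x y h h2 (fun i' hi' => Or.inl ?_))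
        have : i' = i := Fin.ext (by omega)
        rw [this]
        exact h1
      · intro h1
        by_contra h2
        refine hnr (rowalone i hi x y h h2 (fun j' hj' => Or.inl ?_))
        have : j' = j := Fin.ext (by omega)
        rw [this]
        exact h1
    obtain ⟨x, y, hxy, hxi⟩ := hI2 i hi
    have hxj : T.side x (inr j) ≠ T.side y (inr j) := fun h => hxi ((both x y hxy).2 h)
    -- the values on the larger edges
    have vals : ∀ x y : V, At1 T I x y → At2 T J x y → T.side x (inl i) ≠ T.side y (inl i) →
        T.side x (inr j) ≠ T.side y (inr j) →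
        (∀ k : Fin m, I ≤ k.1 → T.side x (inl k) = T.side (T.p (inl i)) (inl k) ∧
          T.side x (inl k) = T.side (T.p (inr j)) (inl k)) ∧
        ∀ k : Fin n, J ≤ k.1 → T.side x (inr k) = T.side (T.p (inl i)) (inr k) ∧
          T.side x (inr k) = T.side (T.p (inr j)) (inr k) := by
      intro x y h1 h2 h3 h4
      refine ⟨fun k hk => ⟨?_, ?_⟩, fun k hk => ⟨?_, ?_⟩⟩
      · refine T.compat (inl i) (inl k) ?_ x y h3 (h1 k hk)
        intro hh
        have := congrArg Fin.val (Sum.inl.inj hh)
        omega
      · exact T.compat (inr j) (inl k) (by simp) x y h4 (h1 k hk)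
      · exact T.compat (inl i) (inr k) (by simp) x y h3 (h2 k hk)
      · refine T.compat (inr j) (inr k) ?_ x y h4 (h2 k hk)
        intro hh
        have := congrArg Fin.val (Sum.inr.inj hh)
        omega
    have hv := vals x y (up1 x y hxy) (up2 x y hxy) hxi hxj
    have hlink : T.Link i j := by
      refine ⟨fun k hk => ?_, fun k hk => ?_⟩
      · have hk' : i.1 < k.1 := hk
        exact (hv.1 k (by omega)).1.symm.trans (hv.1 k (by omega)).2
      · have hk' : j.1 < k.1 := hk
        exact (hv.2 k (by omega)).1.symm.trans (hv.2 k (by omega)).2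
    have t : Fin (P i j) := ⟨0, by rw [hP1 i j hlink]; exact one_pos⟩
    refine ⟨eye i j t, ?_⟩
    apply Setoid.ext
    intro x' y'
    constructor
    · rintro ⟨g1, g2, g3⟩
      have g1' : At1 T I x' y' := g1.mono (by omega)
      have g2' : At2 T J x' y' := g2.mono (by omega)
      -- vertices which agree at the two top edges and above are related
      have low : ∀ u v : V, At1 T I u v → At2 T J u v → T.side u (inl i) = T.side v (inl i) →
          T.side u (inr j) = T.side v (inr j) → ρ u v := by
        intro u v a1 a2 a3 a4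
        refine walk' T ρ F hF u v ?_
        intro e he
        rcases e with k | k
        · by_cases hk : I ≤ k.1
          · exact a1 k hk
          · by_cases hki : k = i
            · rw [hki]
              exact a3
            · have : k.1 ≠ i.1 := fun hh => hki (Fin.ext hh)
              exact absurd (Or.inl ⟨k, rfl, by omega⟩) he
        · by_cases hk : J ≤ k.1
          · exact a2 k hk
          · by_cases hkj : k = j
            · rw [hkj]
              exact a4
            · have : k.1 ≠ j.1 := fun hh => hkj (Fin.ext hh)
              exact absurd (Or.inr ⟨k, rfl, by omega⟩) he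
      by_cases d1 : T.side x' (inl i) = T.side y' (inl i)
      · have d2 : T.side x' (inr j) = T.side y' (inr j) := by
          rw [d1] at g3
          revert g3
          cases T.side y' (inl i) <;> cases T.side x' (inr j) <;> cases T.side y' (inr j) <;> simp
        exact low x' y' g1' g2' d1 d2
      · have d2 : T.side x' (inr j) ≠ T.side y' (inr j) := by
          intro h
          rw [h] at g3
          apply d1
          revert g3
          cases T.side y' (inl i) <;> cases T.side x' (inl i) <;> cases T.side y' (inr j) <;> simp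
        -- both pairs lie on the same far ends
        have same : ∀ x' y' : V, At1 T I x' y' → At2 T J x' y' →
            T.side x' (inl i) ≠ T.side y' (inl i) → T.side x' (inr j) ≠ T.side y' (inr j) →
            T.side x' (inl i) = T.side x (inl i) → ρ x' y' := by
          intro x' y' b1 b2 b3 b4 b5
          have hv' := vals x' y' b1 b2 b3 b4
          have b6 : T.side x' (inr j) = T.side x (inr j) := by
            by_contra hne
            -- then all four corners occur
            have c1 : T.side x (inl i) ≠ T.side y' (inl i) := by rw [← b5]; exact b3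
            have c2 : T.side x (inr j) = T.side y' (inr j) := by
              revert hne b4
              cases T.side x' (inr j) <;> cases T.side x (inr j) <;>
                cases T.side y' (inr j) <;> simp
            have c3 : T.side x' (inl i) ≠ T.side y (inl i) := by rw [b5]; exact hxi
            have c4 : T.side x' (inr j) = T.side y (inr j) := by
              revert hne hxj
              cases T.side x' (inr j) <;> cases T.side x (inr j) <;>
                cases T.side y (inr j) <;> simp
            have c5 := T.compat (inl i) (inr j) (by simp) x y' c1 c2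
            have c6 := T.compat (inl i) (inr j) (by simp) x' y c3 c4
            exact hne (c6.trans c5.symm)
          have b7 : T.side y' (inl i) = T.side y (inl i) := by
            revert b3 b5 hxi
            cases T.side x' (inl i) <;> cases T.side y' (inl i) <;> cases T.side x (inl i) <;>
              cases T.side y (inl i) <;> simp
          have b8 : T.side y' (inr j) = T.side y (inr j) := by
            revert b4 b6 hxj
            cases T.side x' (inr j) <;> cases T.side y' (inr j) <;> cases T.side x (inr j) <;>
              cases T.side y (inr j) <;> simp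
          have r1 : ρ x' x := low x' x (fun k hk => (hv'.1 k hk).1.trans (hv.1 k hk).1.symm)
            (fun k hk => (hv'.2 k hk).1.trans (hv.2 k hk).1.symm) b5 b6
          have r2 : ρ y y' := by
            refine low y y' ?_ ?_ b7.symm b8.symm
            · intro k hk
              rw [← up1 x y hxy k hk, ← b1 k hk]
              exact (hv.1 k hk).1.trans (hv'.1 k hk).1.symm
            · intro k hk
              rw [← up2 x y hxy k hk, ← b2 k hk]
              exact (hv.2 k hk).1.trans (hv'.2 k hk).1.symm
          exact Setoid.trans' ρ r1 (Setoid.trans' ρ hxy r2)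
        by_cases hs : T.side x' (inl i) = T.side x (inl i)
        · exact same x' y' g1' g2' d1 d2 hs
        · apply Setoid.symm' ρ
          refine same y' x' g1'.symm g2'.symm (fun h => d1 h.symm) (fun h => d2 h.symm) ?_
          revert d1 hs
          cases T.side x' (inl i) <;> cases T.side y' (inl i) <;> cases T.side x (inl i) <;> simp
    · intro h
      refine ⟨(up1 x' y' h).mono (by omega), (up2 x' y' h).mono (by omega), ?_⟩
      have hb := both x' y' h
      revert hb
      cases T.side x' (inl i) <;> cases T.side y' (inl i) <;> cases T.side x' (inr j) <;>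
        cases T.side y' (inr j) <;> simp

/-- **Planar lattices whose eyes come from a tree are representable.** -/
theorem tree [Finite V] [Nonempty V] (hP1 : ∀ i j, T.Link i j → P i j = 1)
    (hP0 : ∀ i j, ¬ T.Link i j → P i j = 0)
    (D : Sublattice (Fin (m + 1) × Fin (n + 1)))
    (h1 : ∀ i, ∃ j, (i, j) ∈ D) (h2 : ∀ j, ∃ i, (i, j) ∈ D) :
    Representable {X : Eyed m n P // X.Inside (D : Set (Fin (m + 1) × Fin (n + 1)))} := by
  classical
  have hP : ∀ i j, P i j ≤ 1 := by
    intro i j
    by_cases h : T.Link i j
    · rw [hP1 i j h]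
    · rw [hP0 i j h]
      exact Nat.zero_le _
  obtain ⟨A, ⟨e⟩⟩ := rep_of_classify (Eyed.anti (P := P)) (trel T) (trel_le_iff T hP hP0) (maps T)
    (fun f hf X z z' hz => maps_rel T f hf X z z' hz)
    (fun ρ hρ => tclassify T hP1 ρ hρ) (cutsOf P D)
  refine ⟨A, ⟨OrderIso.trans ⟨Equiv.subtypeEquivRight (inside_iff D h1 h2), ?_⟩ e⟩⟩
  intro X Y
  exact Iff.rfl

end

end Eyed

end Vale.Agent.P183.R2.H332
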